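import Mathlib

/-! Criteria for the existence of a separable infinite-dimensional quotient. -/

set_option maxSynthPendingDepth 3

open Filter Topology Set Submodule

namespace Vale.Agent.P129

/-- `X` has a separable infinite-dimensional quotient by a closed subspace. -/
def SQ (𝕜 X : Type*) [RCLike 𝕜] [NormedAddCommGroup X] [NormedSpace 𝕜 X] : Prop :=
  ∃ M : Submodule 𝕜 X, IsClosed (M : Set X) ∧ TopologicalSpace.SeparableSpace (X ⧸ M) ∧
    ¬ FiniteDimensional 𝕜 (X ⧸ M)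

variable {𝕜 X : Type*} [RCLike 𝕜] [NormedAddCommGroup X] [NormedSpace 𝕜 X]

/-- Basic criterion. -/
theorem sq_of (S : Submodule 𝕜 (StrongDual 𝕜 X)) (hS : ¬ FiniteDimensional 𝕜 S) (D : Set X)
    (hD : D.Countable) (h : ∀ x, ∃ y ∈ closure (span 𝕜 D : Set X), ∀ f ∈ S, f x = f y) :
    SQ 𝕜 X := by
  let M : Submodule 𝕜 X := ⨅ f : S, LinearMap.ker (f.1 : X →ₗ[𝕜] 𝕜)
  have hM : ∀ x, x ∈ M ↔ ∀ f ∈ S, f x = 0 := by
    intro x
    simp [M, Submodule.mem_iInf]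
  refine ⟨M, ?_, ?_, ?_⟩
  · have : (M : Set X) = ⋂ f : S, {x | f.1 x = 0} := by
      ext x
      simp [hM]
    rw [this]
    exact isClosed_iInter fun f => isClosed_eq f.1.continuous continuous_const
  · rw [← TopologicalSpace.isSeparable_univ_iff]
    have h1 : TopologicalSpace.IsSeparable (closure (span 𝕜 D : Set X)) :=
      (hD.isSeparable.span (R := 𝕜)).closure
    refine (h1.image (f := M.mkQ) continuous_quot_mk).mono ?_
    intro q _
    obtain ⟨x, rfl⟩ := M.mkQ_surjective q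
    obtain ⟨y, hy, hxy⟩ := h x
    refine ⟨y, hy, ?_⟩
    simp only [mkQ_apply]
    rw [Submodule.Quotient.eq, hM]
    intro f hf
    rw [map_sub, hxy f hf, sub_self]
  · intro hfin
    apply hS
    have : FiniteDimensional 𝕜 M.dualAnnihilator :=
      LinearEquiv.finiteDimensional (M.dualQuotEquivDualAnnihilator)
    let L : S →ₗ[𝕜] M.dualAnnihilator :=
      { toFun := fun f => ⟨(f.1 : X →ₗ[𝕜] 𝕜), by
          rw [Submodule.mem_dualAnnihilator]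
          intro w hw
          exact (hM w).1 hw f.1 f.2⟩
        map_add' := fun f g => by ext x; simp
        map_smul' := fun c f => by ext x; simp }
    refine FiniteDimensional.of_injective (K := 𝕜) (V := S) (V₂ := M.dualAnnihilator) L ?_
    intro f g hfg
    ext x
    have := congrArg (fun φ : M.dualAnnihilator => φ.1 x) hfg
    simpa [L] using this

/-- `F` is a finite `δ`-net of the unit ball, as seen from `G`. -/
def IsNet (G : Submodule 𝕜 (StrongDual 𝕜 X)) (δ : ℝ) (F : Set X) : Prop :=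
  F.Finite ∧ (∀ z ∈ F, ‖z‖ ≤ 1) ∧
    ∀ y : X, ‖y‖ ≤ 1 → ∃ z ∈ F, ∀ f ∈ G, ‖f y - f z‖ ≤ δ * ‖f‖

theorem exists_net_aux {E : Type*} [NormedAddCommGroup E] [NormedSpace 𝕜 E]
    [FiniteDimensional 𝕜 E] (J : E →L[𝕜] StrongDual 𝕜 X) {δ : ℝ} (hδ : 0 < δ) :
    ∃ F : Set X, F.Finite ∧ (∀ z ∈ F, ‖z‖ ≤ 1) ∧
      ∀ y : X, ‖y‖ ≤ 1 → ∃ z ∈ F, ∀ e, ‖J e y - J e z‖ ≤ δ * ‖e‖ := by
  let T : X → (E →L[𝕜] 𝕜) := fun x => (ContinuousLinearMap.apply 𝕜 𝕜 x).comp J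
  have hT : ∀ x e, T x e = J e x := fun x f => rfl
  have hb : ∀ x, ‖T x‖ ≤ ‖J‖ * ‖x‖ := by
    intro x
    refine ContinuousLinearMap.opNorm_le_bound _ (by positivity) fun e => ?_
    rw [hT]
    calc ‖J e x‖ ≤ ‖J e‖ * ‖x‖ := (J e).le_opNorm x
      _ ≤ ‖J‖ * ‖e‖ * ‖x‖ := by gcongr; exact J.le_opNorm e
      _ = _ := by ring
  have : ProperSpace (E →L[𝕜] 𝕜) := FiniteDimensional.proper_rclike 𝕜 _
  have htb : TotallyBounded (T '' Metric.closedBall 0 1) := by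
    refine (isCompact_closedBall (0 : E →L[𝕜] 𝕜) ‖J‖).totallyBounded.subset ?_
    rintro _ ⟨x, hx, rfl⟩
    rw [mem_closedBall_zero_iff] at hx ⊢
    exact (hb x).trans (mul_le_of_le_one_right (norm_nonneg _) hx)
  obtain ⟨t, hts, htf, hcov⟩ := Metric.finite_approx_of_totallyBounded htb δ hδ
  obtain ⟨F, hF, hFf, hcov⟩ := (Set.exists_subset_image_finite_and
    (p := fun u => T '' Metric.closedBall 0 1 ⊆ ⋃ y ∈ u, Metric.ball y δ)).1 ⟨t, hts, htf, hcov⟩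
  refine ⟨F, hFf, fun z hz => mem_closedBall_zero_iff.1 (hF hz), fun y hy => ?_⟩
  have := hcov ⟨y, mem_closedBall_zero_iff.2 hy, rfl⟩
  simp only [mem_iUnion, Metric.mem_ball, dist_eq_norm] at this
  obtain ⟨_, ⟨z, hz, rfl⟩, hyz⟩ := this
  refine ⟨z, hz, fun e => ?_⟩
  calc ‖J e y - J e z‖ = ‖(T y - T z) e‖ := rfl
    _ ≤ ‖T y - T z‖ * ‖e‖ := (T y - T z).le_opNorm e
    _ ≤ δ * ‖e‖ := by gcongr

theorem exists_net (G : Submodule 𝕜 (StrongDual 𝕜 X)) [FiniteDimensional 𝕜 G] {δ : ℝ}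
    (hδ : 0 < δ) : ∃ F : Set X, IsNet G δ F := by
  obtain ⟨F, h1, h2, h3⟩ := exists_net_aux (𝕜 := 𝕜) (X := X) (E := G) G.subtypeL hδ
  refine ⟨F, h1, h2, fun y hy => ?_⟩
  obtain ⟨z, hz, h⟩ := h3 y hy
  exact ⟨z, hz, fun f hf => h ⟨f, hf⟩⟩

/-- A net is norming. -/
theorem IsNet.norm_le {G : Submodule 𝕜 (StrongDual 𝕜 X)} {δ : ℝ} {F : Set X} (h : IsNet G δ F)
    {f : StrongDual 𝕜 X} (hf : f ∈ G) {c : ℝ} (hc : ∀ z ∈ F, ‖f z‖ ≤ c) :
    ‖f‖ ≤ c + δ * ‖f‖ := by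
  have key : ∀ y : X, ‖y‖ ≤ 1 → ‖f y‖ ≤ c + δ * ‖f‖ := by
    intro y hy
    obtain ⟨z, hz, hyz⟩ := h.2.2 y hy
    have h1 := hyz f hf
    have h2 := hc z hz
    have h3 : ‖f y‖ ≤ ‖f z‖ + ‖f y - f z‖ := norm_le_norm_add_norm_sub' _ _
    linarith
  exact ContinuousLinearMap.opNorm_le_of_unit_norm
    ((norm_nonneg _).trans (key 0 (by simp))) fun y hy => key y hy.le

/-- Helly's lemma. -/
theorem helly {ι : Type*} [Finite ι] (L : ι → StrongDual 𝕜 X) (x : X) {c θ : ℝ} (hc : 0 ≤ c)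
    (hθ : 0 < θ) (h : ∀ f ∈ span 𝕜 (range L), ‖f x‖ ≤ c * ‖f‖) :
    ∃ y : X, ‖y‖ ≤ c + θ ∧ ∀ f ∈ span 𝕜 (range L), f y = f x := by
  let N : Submodule 𝕜 X := ⨅ i, LinearMap.ker (L i : X →ₗ[𝕜] 𝕜)
  obtain ⟨g, hg1, hgx⟩ := exists_dual_vector'' 𝕜 (N.mkQ x)
  let φ : StrongDual 𝕜 X := g.comp N.mkQL
  have hφ : ∀ y, φ y = g (N.mkQ y) := fun y => rfl
  have hφ1 : ‖φ‖ ≤ 1 := by
    refine ContinuousLinearMap.opNorm_le_bound _ zero_le_one fun y => ?_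
    rw [hφ]
    calc ‖g (N.mkQ y)‖ ≤ ‖g‖ * ‖N.mkQ y‖ := g.le_opNorm _
      _ ≤ 1 * ‖y‖ := by gcongr; exact Submodule.Quotient.norm_mk_le N y
  have hmem : φ ∈ span 𝕜 (range L) := by
    have : (φ : X →ₗ[𝕜] 𝕜) ∈ span 𝕜 (range fun i => (L i : X →ₗ[𝕜] 𝕜)) := by
      refine mem_span_of_iInf_ker_le_ker fun y hy => ?_
      have : N.mkQ y = 0 := (Submodule.Quotient.mk_eq_zero N).2 hy
      simp only [LinearMap.mem_ker, ContinuousLinearMap.coe_coe]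
      rw [hφ, this, map_zero]
    have _i := Fintype.ofFinite ι
    rw [Submodule.mem_span_range_iff_exists_fun] at this ⊢
    obtain ⟨a, ha⟩ := this
    refine ⟨a, ?_⟩
    ext y
    simpa using congrArg (fun ψ : X →ₗ[𝕜] 𝕜 => ψ y) ha
  have hle : ‖N.mkQ x‖ ≤ c := by
    have h1 := h φ hmem
    rw [hφ, hgx] at h1
    simp only [norm_algebraMap', norm_norm] at h1
    exact h1.trans (mul_le_of_le_one_right hc hφ1)
  obtain ⟨y, hy, hyn⟩ := Submodule.Quotient.norm_mk_lt (N.mkQ x) hθ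
  refine ⟨y, by linarith, fun f hf => ?_⟩
  have hyx : y - x ∈ N := (Submodule.Quotient.eq N).1 hy
  have : f (y - x) = 0 := by
    induction hf using Submodule.span_induction with
    | mem f hf =>
      obtain ⟨i, rfl⟩ := hf
      simpa using (Submodule.mem_iInf _).1 hyx i
    | zero => simp
    | add f g _ _ hf hg => rw [add_apply, hf, hg, add_zero]
    | smul a f _ hf => rw [smul_apply, hf, smul_zero]
  rwa [map_sub, sub_eq_zero] at this

end Vale.Agent.P129
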