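import Vale.Agent.P129.Unc

/-! Block sequences of `ℓ¹`-sequences, and the two end cases. -/

set_option maxSynthPendingDepth 3

open Filter Topology Set Submodule

namespace Vale.Agent.P129

variable {𝕜 X : Type*} [RCLike 𝕜] [NormedAddCommGroup X] [NormedSpace 𝕜 X]

theorem N1_eq (a : ℕ →₀ 𝕜) {s : Finset ℕ} (h : a.support ⊆ s) : N1 a = ∑ i ∈ s, ‖a i‖ :=
  Finset.sum_subset h fun i _ hi => by rw [Finsupp.notMem_support_iff.1 hi, norm_zero]

theorem N1_nonneg (a : ℕ →₀ 𝕜) : 0 ≤ N1 a := Finset.sum_nonneg fun _ _ => norm_nonneg _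

theorem N1_add {a b : ℕ →₀ 𝕜} (h : Disjoint a.support b.support) : N1 (a + b) = N1 a + N1 b := by
  rw [N1_eq (a + b) Finsupp.support_add, N1_eq a (Finset.subset_union_left (s₂ := b.support)),
    N1_eq b (Finset.subset_union_right (s₁ := a.support)), ← Finset.sum_add_distrib]
  refine Finset.sum_congr rfl fun i _ => ?_
  by_cases hi : i ∈ a.support
  · simp [Finsupp.notMem_support_iff.1 (Finset.disjoint_left.1 h hi)]
  · simp [Finsupp.notMem_support_iff.1 hi]

theorem N1_smul (c : 𝕜) (a : ℕ →₀ 𝕜) : N1 (c • a) = ‖c‖ * N1 a := by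
  rw [N1_eq (c • a) Finsupp.support_smul, N1, Finset.mul_sum]
  simp

theorem N1_single (i : ℕ) (c : 𝕜) : N1 (Finsupp.single i c) = ‖c‖ := by
  rw [N1_eq _ Finsupp.support_single_subset]
  simp

theorem N1_sum {ι : Type*} (s : Finset ι) (b : ι → ℕ →₀ 𝕜)
    (h : Pairwise fun k l => Disjoint (b k).support (b l).support) :
    N1 (∑ i ∈ s, b i) = ∑ i ∈ s, N1 (b i) := by
  classical
  induction s using Finset.induction_on with
  | empty => simp [N1]
  | insert i s hi ih =>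
    rw [Finset.sum_insert hi, Finset.sum_insert hi, N1_add, ih]
    refine Disjoint.mono_right Finsupp.support_finsetSum ?_
    rw [Finset.disjoint_biUnion_right]
    exact fun j hj => h fun e => hi (e ▸ hj)

theorem norm_lc_le {g : ℕ → StrongDual 𝕜 X} (hg : ∀ k, ‖g k‖ ≤ 1) (a : ℕ →₀ 𝕜) :
    ‖lc g a‖ ≤ N1 a := by
  rw [Finsupp.linearCombination_apply, Finsupp.sum]
  refine (norm_sum_le _ _).trans (Finset.sum_le_sum fun i _ => ?_)
  rw [norm_smul]
  exact mul_le_of_le_one_right (norm_nonneg _) (hg i)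

theorem norm_lc_apply_le_N1 (g : ℕ → StrongDual 𝕜 X) (a : ℕ →₀ 𝕜) (x : X) {ρ : ℝ}
    (h : ∀ i ∈ a.support, ‖g i x‖ ≤ ρ) : ‖lc g a x‖ ≤ N1 a * ρ := by
  refine (norm_lc_apply_le _ _ _).trans ?_
  rw [N1, Finset.sum_mul]
  exact Finset.sum_le_sum fun i hi => mul_le_mul_of_nonneg_left (h i hi) (norm_nonneg _)

/-- Normalized disjointly supported sequences. -/
def Blk (c : ℕ → ℕ →₀ 𝕜) : Prop :=
  (∀ k, N1 (c k) = 1) ∧ Pairwise fun k l => Disjoint (c k).support (c l).support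

theorem Blk.N1_comb {c : ℕ → ℕ →₀ 𝕜} (hc : Blk c) (a : ℕ →₀ 𝕜) :
    N1 (Finsupp.linearCombination 𝕜 c a) = N1 a := by
  rw [Finsupp.linearCombination_apply, Finsupp.sum, N1_sum]
  · simp only [N1_smul, hc.1, mul_one]
    rfl
  · exact fun k l hkl => (hc.2 hkl).mono Finsupp.support_smul Finsupp.support_smul

theorem Blk.comp {b c : ℕ → ℕ →₀ 𝕜} (hb : Blk b) (hc : Blk c) :
    Blk fun k => Finsupp.linearCombination 𝕜 b (c k) := by
  classical
  refine ⟨fun k => by rw [hb.N1_comb, hc.1], fun k l hkl => ?_⟩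
  simp only [Finsupp.linearCombination_apply, Finsupp.sum]
  refine Disjoint.mono Finsupp.support_finsetSum Finsupp.support_finsetSum ?_
  rw [Finset.disjoint_biUnion_left]
  intro i hi
  rw [Finset.disjoint_biUnion_right]
  intro j hj
  exact (hb.2 fun e : i = j => Finset.disjoint_left.1 (hc.2 hkl) hi (e ▸ hj)).mono
    Finsupp.support_smul Finsupp.support_smul

theorem Blk.eventually {c : ℕ → ℕ →₀ 𝕜} (hc : Blk c) (s : Finset ℕ) :
    ∀ᶠ k in atTop, Disjoint (c k).support s := by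
  simp only [Finset.disjoint_right]
  rw [eventually_all_finset]
  intro i _
  rw [← Nat.cofinite_eq_atTop, eventually_cofinite]
  refine Set.Subsingleton.finite fun k hk l hl => ?_
  by_contra hkl
  exact Finset.disjoint_left.1 (hc.2 hkl) (not_not.1 hk) (not_not.1 hl)

theorem IsL1.block {C : ℝ} {g : ℕ → StrongDual 𝕜 X} (hg : IsL1 C g) {c : ℕ → ℕ →₀ 𝕜}
    (hc : Blk c) : IsL1 C fun k => lc g (c k) := by
  refine ⟨fun k => (norm_lc_le hg.1 _).trans (hc.1 k).le, fun a => ?_⟩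
  rw [← Finsupp.linearCombination_linearCombination, ← hc.N1_comb]
  exact hg.2 _

/-- A weak-star null `ℓ¹`-sequence gives a separable quotient. -/
theorem IsL1.sq_of_null [CompleteSpace X] {C : ℝ} {g : ℕ → StrongDual 𝕜 X} (hg : IsL1 C g)
    (h0 : ∀ x : X, ‖x‖ ≤ 1 → ∀ ε : ℝ, 0 < ε → ∀ᶠ k in atTop, ‖g k x‖ ≤ ε) : SQ 𝕜 X := by
  have h1 : ∀ i, 1 ≤ C * ‖g i‖ := fun i => by
    simpa [N1_single] using hg.2 (Finsupp.single i 1)
  have hC : 0 < C := by
    by_contra! h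
    have := mul_nonpos_of_nonpos_of_nonneg h (norm_nonneg (g 0))
    linarith [h1 0]
  refine lemL' g (fun i h => ?_) fun x ε hε => ?_
  · have := h1 i
    rw [h, norm_zero, mul_zero] at this
    linarith
  have hx : 0 < ‖x‖ + 1 := by positivity
  obtain ⟨n, hn⟩ := eventually_atTop.1 (h0 _ (norm_smul_inv_le (𝕜 := 𝕜) (y := x) hx (by linarith))
    (ε / C / (‖x‖ + 1)) (by positivity))
  refine ⟨n, fun a ha => (norm_lc_apply_le_N1 g a x (ρ := ε / C) fun i hi => ?_).trans ?_⟩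
  · have := hn i (ha i hi)
    rwa [map_smul, norm_smul, RCLike.norm_ofReal, abs_of_pos (inv_pos.2 hx), inv_mul_eq_div,
      div_le_div_iff_of_pos_right hx] at this
  · calc _ ≤ C * ‖lc g a‖ * (ε / C) := by gcongr; exact hg.2 a
      _ = _ := by field_simp

/-- The square of the `ℓ²` norm of a finitely supported sequence. -/
noncomputable def N2 (a : ℕ →₀ 𝕜) : ℝ := ∑ i ∈ a.support, ‖a i‖ ^ 2

theorem N2_eq (a : ℕ →₀ 𝕜) {s : Finset ℕ} (h : a.support ⊆ s) : N2 a = ∑ i ∈ s, ‖a i‖ ^ 2 :=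
  Finset.sum_subset h fun i _ hi => by simp [Finsupp.notMem_support_iff.1 hi]

theorem le_N2 (a : ℕ →₀ 𝕜) (s : Finset ℕ) : ∑ i ∈ s, ‖a i‖ ^ 2 ≤ N2 a := by
  rw [N2_eq a (Finset.subset_union_right (s₁ := s))]
  exact Finset.sum_le_sum_of_subset_of_nonneg Finset.subset_union_left fun _ _ _ => by positivity

theorem N2_single (i : ℕ) : N2 (Finsupp.single i (1 : 𝕜)) = 1 := by
  rw [N2_eq _ Finsupp.support_single_subset]
  simp

theorem lc_eq (g : ℕ → StrongDual 𝕜 X) (a : ℕ →₀ 𝕜) {s : Finset ℕ} (h : a.support ⊆ s) :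
    lc g a = ∑ i ∈ s, a i • g i := by
  rw [Finsupp.linearCombination_apply, Finsupp.sum_of_support_subset _ h _ (by simp)]

/-- An `ℓ²`-sequence gives a separable quotient. -/
theorem sq_of_l2 [CompleteSpace X] (φ : ℕ → StrongDual 𝕜 X) {c : ℝ} (hc : 0 < c)
    (hl : ∀ a, c * √(N2 a) ≤ ‖lc φ a‖) (hu : ∀ a x, ‖lc φ a x‖ ≤ √(N2 a) * ‖x‖) : SQ 𝕜 X := by
  refine lemL' φ (fun i h => ?_) fun x ε hε => ?_
  · have := hl (Finsupp.single i 1)
    simp [N2_single, h] at this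
    linarith
  have hb : ∀ s : Finset ℕ, ∑ j ∈ s, ‖φ j x‖ ^ 2 ≤ ‖x‖ ^ 2 := by
    intro s
    let a : ℕ →₀ 𝕜 := Finsupp.onFinset s
      (fun j => if j ∈ s then (starRingEnd 𝕜) (φ j x) else 0) fun j hj => by
        by_contra h
        simp [h] at hj
    have ha : ∀ j ∈ s, a j = (starRingEnd 𝕜) (φ j x) := fun j hj => by simp [a, hj]
    have h1 : N2 a = ∑ j ∈ s, ‖φ j x‖ ^ 2 := by
      rw [N2_eq a Finsupp.support_onFinset_subset]
      exact Finset.sum_congr rfl fun j hj => by rw [ha j hj, RCLike.norm_conj]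
    have h2 : lc φ a x = ((∑ j ∈ s, ‖φ j x‖ ^ 2 : ℝ) : 𝕜) := by
      rw [lc_eq φ a Finsupp.support_onFinset_subset, sum_apply]
      push_cast
      exact Finset.sum_congr rfl fun j hj => by
        rw [Pi.smul_apply, ha j hj, smul_eq_mul, RCLike.conj_mul]
    have h3 := hu a x
    have h4 : 0 ≤ ∑ j ∈ s, ‖φ j x‖ ^ 2 := by positivity
    rw [h1, h2, RCLike.norm_ofReal, abs_of_nonneg h4] at h3
    have h5 := Real.sq_sqrt h4
    nlinarith [sq_nonneg (√(∑ j ∈ s, ‖φ j x‖ ^ 2) - ‖x‖)]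
  have hs : Summable fun j => ‖φ j x‖ ^ 2 := summable_of_sum_le (fun _ => by positivity) hb
  obtain ⟨s, hs⟩ := summable_iff_vanishing_norm.1 hs ((ε * c) ^ 2) (by positivity)
  refine ⟨s.sup id + 1, fun a ha => ?_⟩
  have hdis : Disjoint a.support s := by
    rw [Finset.disjoint_left]
    intro i hi his
    have := ha i hi
    have := Finset.le_sup (f := id) his
    simp only [id] at this
    omega
  have h1 := Real.sqrt_le_sqrt ((le_abs_self _).trans (hs _ hdis).le)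
  rw [Real.sqrt_sq (by positivity)] at h1
  calc _ ≤ _ := norm_lc_apply_le φ a x
    _ ≤ √(N2 a) * √(∑ j ∈ a.support, ‖φ j x‖ ^ 2) := Real.sum_mul_le_sqrt_mul_sqrt _ _ _
    _ ≤ √(N2 a) * (ε * c) := by gcongr
    _ = ε * (c * √(N2 a)) := by ring
    _ ≤ _ := by gcongr; exact hl a

theorem exists_ext (n : ℕ) : ∃ ex : (Fin n → 𝕜) → ℕ →₀ 𝕜,
    (∀ b, (ex b).support ⊆ Finset.range n) ∧ (∀ j, Continuous fun b => ex b j) ∧
      ∀ a : ℕ →₀ 𝕜, a.support ⊆ Finset.range n → ex (fun j => a j) = a := by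
  refine ⟨fun b => Finsupp.onFinset (Finset.range n)
    (fun j => if h : j < n then b ⟨j, h⟩ else 0) fun j hj => by
      by_contra h
      rw [Finset.mem_range] at h
      simp [h] at hj, fun b => Finsupp.support_onFinset_subset, fun j => ?_, fun a hn => ?_⟩
  · by_cases h : j < n
    · simpa [h] using continuous_apply _
    · simpa [h] using continuous_const
  · ext j
    by_cases h : j < n
    · simp [h]
    · simpa [h] using
        (Finsupp.notMem_support_iff.1 fun hj => h (Finset.mem_range.1 (hn hj))).symm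

theorem exists_dense_enum : ∃ e : ℕ → ℕ →₀ 𝕜, (∀ N, (e N).support ⊆ Finset.range N) ∧
    ∀ (φ : ℕ → StrongDual 𝕜 X) (c : ℝ), (∀ N, c * √(N2 (e N)) ≤ ‖lc φ (e N)‖) →
      ∀ a, c * √(N2 a) ≤ ‖lc φ a‖ := by
  choose ex hs hcont hex using exists_ext (𝕜 := 𝕜)
  obtain ⟨E, hE⟩ : ∃ E : ℕ → ℕ → ℕ →₀ 𝕜, ∀ n i, E n i = ex n (TopologicalSpace.denseSeq _ i) :=
    ⟨_, fun _ _ => rfl⟩
  refine ⟨fun N => E N.unpair.1 N.unpair.2, fun N => ?_, fun φ c h a => ?_⟩
  · beta_reduce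
    rw [hE]
    exact (hs _ _).trans (Finset.range_subset_range.2 (Nat.unpair_left_le N))
  obtain ⟨n, hn⟩ : ∃ n, a.support ⊆ Finset.range n := Finset.exists_nat_subset_range _
  rw [← hex n a hn]
  refine (TopologicalSpace.denseRange_denseSeq (Fin n → 𝕜)).induction_on
    (p := fun b => c * √(N2 (ex n b)) ≤ ‖lc φ (ex n b)‖) _ ?_ fun i => ?_
  · simp only [N2_eq _ (hs n _), lc_eq φ _ (hs n _)]
    have h1 : Continuous fun b => ∑ j ∈ Finset.range n, ‖ex n b j‖ ^ 2 :=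
      continuous_finsetSum _ fun j _ => (hcont n j).norm.pow 2
    have h2 : Continuous fun b => ∑ j ∈ Finset.range n, ex n b j • φ j :=
      continuous_finsetSum _ fun j _ => (hcont n j).smul continuous_const
    exact isClosed_le (continuous_const.mul h1.sqrt) h2.norm
  · have := h (Nat.pair n i)
    simp only [Nat.unpair_pair] at this
    rwa [hE] at this

theorem exists_ultralimit (U : Ultrafilter ℕ) (F : ℕ → StrongDual 𝕜 X) (hF : ∀ N, ‖F N‖ ≤ 1) :
    ∃ φ : StrongDual 𝕜 X, ∀ x, Tendsto (fun N => F N x) U (𝓝 (φ x)) := by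
  obtain ⟨φ, -, hφ⟩ := (WeakDual.isCompact_closedBall (𝕜 := 𝕜) (E := X) 0 1).ultrafilter_le_nhds
    (U.map fun N => StrongDual.toWeakDual (F N)) (by
      rw [le_principal_iff, Ultrafilter.coe_map, mem_map]
      exact univ_mem' fun N => mem_closedBall_zero_iff.2 (hF N))
  exact ⟨WeakDual.toStrongDual φ, fun x => ((WeakDual.eval_continuous x).tendsto φ).comp hφ⟩

end Vale.Agent.P129
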