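import Vale.Agent.P129.Basic

/-! The Dvoretzky-Rogers lemma in a dual space. -/

set_option maxSynthPendingDepth 3

open Filter Topology Set Submodule Module

namespace Vale.Agent.P129

variable {𝕜 : Type*} [RCLike 𝕜]

theorem det_one_add_proj {E : Type*} [AddCommGroup E] [Module 𝕜 E] [FiniteDimensional 𝕜 E]
    {W : Submodule 𝕜 E} {P : E →ₗ[𝕜] E} (h : LinearMap.IsProj W P) :
    LinearMap.det (LinearMap.id + P) = 2 ^ finrank 𝕜 W := by
  set e := W.prodEquivOfIsCompl (LinearMap.ker P) h.isCompl with he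
  have h1 : (LinearMap.id + P : E →ₗ[𝕜] E) = e.toLinearMap ∘ₗ
      (LinearMap.prodMap ((2 : 𝕜) • LinearMap.id) LinearMap.id) ∘ₗ e.symm.toLinearMap := by
    ext x
    obtain ⟨⟨w, v⟩, rfl⟩ := e.surjective x
    have hv : P v = 0 := v.2
    have hw : P w = w := h.map_id _ w.2
    simp [he, hv, hw, two_smul]
    abel
  rw [h1, LinearMap.det_conj, LinearMap.det_prodMap, LinearMap.det_smul]
  simp

theorem dr_max {E V : Type*} [NormedAddCommGroup E] [InnerProductSpace 𝕜 E]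
    [FiniteDimensional 𝕜 E] [NormedAddCommGroup V] [NormedSpace 𝕜 V] (J : E →L[𝕜] V)
    (hJ : Function.Injective J) {m : ℕ} (hm : finrank 𝕜 E = 2 * m) (hm0 : 0 < m) :
    ∃ T : E →L[𝕜] V, ‖T‖ ≤ 1 ∧ ∀ W : Submodule 𝕜 E, m ≤ finrank 𝕜 W →
      ∃ e ∈ W, ‖e‖ = 1 ∧ 1 / 4 ≤ ‖T e‖ := by
  have : ProperSpace (E →L[𝕜] E) := FiniteDimensional.proper_rclike 𝕜 _
  have : CompleteSpace E := FiniteDimensional.complete 𝕜 E
  obtain ⟨K, -, hK⟩ := LinearMap.exists_antilipschitzWith (J : E →ₗ[𝕜] V)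
    (LinearMap.ker_eq_bot.2 hJ)
  let C : Set (E →L[𝕜] E) := {A | ‖J.comp A‖ ≤ 1}
  have hC : IsCompact C := by
    refine Metric.isCompact_of_isClosed_isBounded (isClosed_le (by fun_prop) continuous_const) ?_
    refine (Metric.isBounded_closedBall (x := 0) (r := K)).subset fun A hA => ?_
    rw [mem_closedBall_zero_iff]
    refine A.opNorm_le_bound K.2 fun x => ?_
    have h1 : ‖A x‖ ≤ K * ‖J (A x)‖ := by
      simpa using hK.le_mul_dist (A x) 0
    refine h1.trans ?_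
    gcongr
    exact ((J.comp A).le_opNorm x).trans (mul_le_of_le_one_left (norm_nonneg _) hA)
  have hc : (0 : ℝ) < (‖J‖ + 1)⁻¹ := by positivity
  have hA0 : (((‖J‖ + 1)⁻¹ : ℝ) : 𝕜) • ContinuousLinearMap.id 𝕜 E ∈ C := by
    change ‖J.comp _‖ ≤ 1
    rw [ContinuousLinearMap.comp_smul, ContinuousLinearMap.comp_id, norm_smul, RCLike.norm_ofReal,
      abs_of_pos hc, inv_mul_le_iff₀ (by positivity)]
    linarith
  obtain ⟨A, hA, hmax⟩ := hC.exists_isMaxOn ⟨_, hA0⟩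
    (ContinuousLinearMap.continuous_det.norm.continuousOn)
  have hpos : 0 < ‖A.det‖ := by
    refine lt_of_lt_of_le ?_ (hmax hA0)
    simp only [ContinuousLinearMap.det, ContinuousLinearMap.toLinearMap_smul, LinearMap.det_smul,
      ContinuousLinearMap.coe_id, LinearMap.det_id, mul_one, norm_pow, RCLike.norm_ofReal,
      abs_of_pos hc]
    positivity
  refine ⟨J.comp A, hA, fun W hW => ?_⟩
  by_contra! hcon
  have hsm : ∀ e ∈ W, ‖J.comp A e‖ ≤ 1 / 4 * ‖e‖ := by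
    intro e he
    have := ((J.comp A).comp W.subtypeL).opNorm_le_of_unit_norm (C := 1 / 4) (by norm_num)
      fun w hw => (hcon w w.2 hw).le
    exact ((J.comp A).comp W.subtypeL).le_of_opNorm_le this ⟨e, he⟩
  let B : E →L[𝕜] E := ((4 / 5 : ℝ) : 𝕜) • A.comp (ContinuousLinearMap.id 𝕜 E + W.starProjection)
  have h45 : ‖((4 / 5 : ℝ) : 𝕜)‖ = 4 / 5 := by rw [RCLike.norm_ofReal]; norm_num
  have hB : B ∈ C := by
    refine ContinuousLinearMap.opNorm_le_bound _ zero_le_one fun x => ?_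
    have e : J.comp B x = ((4 / 5 : ℝ) : 𝕜) • (J.comp A x + J.comp A (W.starProjection x)) := by
      simp [B]
    have h1 : ‖J.comp A x‖ ≤ ‖x‖ :=
      ((J.comp A).le_opNorm x).trans (mul_le_of_le_one_left (norm_nonneg _) hA)
    have h2 := hsm _ (W.starProjection_apply_mem x)
    have h3 := W.norm_starProjection_apply_le x
    have h4 := norm_add_le (J.comp A x) (J.comp A (W.starProjection x))
    rw [e, norm_smul, h45]
    linarith
  have hproj : LinearMap.IsProj W (W.starProjection : E →ₗ[𝕜] E) :=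
    ⟨fun x => W.starProjection_apply_mem x, fun x hx => W.starProjection_eq_self_iff.2 hx⟩
  have hdet : ‖B.det‖ = (4 / 5) ^ (2 * m) * (‖A.det‖ * 2 ^ finrank 𝕜 W) := by
    simp only [B, ContinuousLinearMap.det, ContinuousLinearMap.toLinearMap_smul, LinearMap.det_smul,
      ContinuousLinearMap.toLinearMap_comp, LinearMap.det_comp, ContinuousLinearMap.toLinearMap_add,
      ContinuousLinearMap.coe_id, det_one_add_proj hproj, norm_mul, norm_pow, h45, hm,
      RCLike.norm_ofNat]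
  have h1 : ‖B.det‖ ≤ ‖A.det‖ := hmax hB
  have h2 : (2 : ℝ) ^ m ≤ 2 ^ finrank 𝕜 W := pow_le_pow_right₀ (by norm_num) hW
  have h3 : (1 : ℝ) < (4 / 5) ^ (2 * m) * 2 ^ m := by
    rw [pow_mul, ← mul_pow]
    exact one_lt_pow₀ (by norm_num) hm0.ne'
  have h4 : (4 / 5 : ℝ) ^ (2 * m) * 2 ^ m ≤ (4 / 5) ^ (2 * m) * 2 ^ finrank 𝕜 W := by gcongr
  nlinarith

theorem exists_orthonormal_of {E : Type*} [NormedAddCommGroup E] [InnerProductSpace 𝕜 E]
    [FiniteDimensional 𝕜 E] {m : ℕ} (hm : finrank 𝕜 E = 2 * m) (p : E → Prop)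
    (h : ∀ W : Submodule 𝕜 E, m ≤ finrank 𝕜 W → ∃ e ∈ W, ‖e‖ = 1 ∧ p e) (j : ℕ) (hj : j ≤ m) :
    ∃ e : Fin j → E, Orthonormal 𝕜 e ∧ ∀ i, p (e i) := by
  induction j with
  | zero => exact ⟨Fin.elim0, Orthonormal.of_isEmpty _, fun i => i.elim0⟩
  | succ j ih =>
    obtain ⟨e, he, hp⟩ := ih (by omega)
    have h1 : finrank 𝕜 (span 𝕜 (range e)) ≤ j := by
      simpa [Set.finrank] using finrank_range_le_card (R := 𝕜) e
    have h2 := (span 𝕜 (range e)).finrank_add_finrank_orthogonal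
    obtain ⟨v, hv, hv1, hpv⟩ := h (span 𝕜 (range e))ᗮ (by omega)
    refine ⟨Matrix.vecCons v e, orthonormal_vecCons_iff.2 ⟨hv1, fun i => ?_, he⟩, ?_⟩
    · exact (mem_orthogonal' _ _).1 hv _ (subset_span ⟨i, rfl⟩)
    · intro i
      induction i using Fin.cases with
      | zero => simpa using hpv
      | succ i => simpa using hp i

variable {X : Type*} [NormedAddCommGroup X] [NormedSpace 𝕜 X]

theorem dual_infinite (hX : ¬ FiniteDimensional 𝕜 X) :
    ¬ FiniteDimensional 𝕜 (StrongDual 𝕜 X) := fun _ =>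
  hX (FiniteDimensional.of_injective (NormedSpace.inclusionInDoubleDualLi 𝕜 (E := X)).toLinearMap
    (NormedSpace.inclusionInDoubleDualLi 𝕜 (E := X)).injective)

/-- Dvoretzky-Rogers lemma. -/
theorem dvoretzky_rogers (hX : ¬ FiniteDimensional 𝕜 X) (m : ℕ) :
    ∃ u : Fin m → StrongDual 𝕜 X, (∀ i, ‖u i‖ = 1) ∧
      ∀ x, ∑ i, ‖u i x‖ ^ 2 ≤ 16 * ‖x‖ ^ 2 := by
  rcases Nat.eq_zero_or_pos m with rfl | hm0
  · exact ⟨Fin.elim0, fun i => i.elim0, fun x => by simp⟩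
  have hr : ((2 * m : ℕ) : Cardinal) ≤ Module.rank 𝕜 (StrongDual 𝕜 X) := by
    have := dual_infinite hX
    rw [FiniteDimensional, ← Module.rank_lt_aleph0_iff, not_lt] at this
    exact Cardinal.natCast_lt_aleph0.le.trans this
  obtain ⟨f, hf⟩ := exists_linearIndependent_of_le_rank hr
  let E := EuclideanSpace 𝕜 (Fin (2 * m))
  let J0 : E →ₗ[𝕜] StrongDual 𝕜 X :=
    Fintype.linearCombination 𝕜 f ∘ₗ (WithLp.linearEquiv 2 𝕜 (Fin (2 * m) → 𝕜)).toLinearMap
  have hJ : Function.Injective J0 :=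
    (linearIndependent_iff_injective_fintypeLinearCombination.1 hf).comp (WithLp.linearEquiv 2 𝕜 _).injective
  have hm : finrank 𝕜 E = 2 * m := by simp [E]
  obtain ⟨T, hT, hW⟩ := dr_max (LinearMap.toContinuousLinearMap J0) hJ hm hm0
  obtain ⟨e, he, hp⟩ := exists_orthonormal_of hm _ hW m le_rfl
  have hpos : ∀ i, 0 < ‖T (e i)‖ := fun i => lt_of_lt_of_le (by norm_num) (hp i)
  refine ⟨fun i => ((‖T (e i)‖⁻¹ : ℝ) : 𝕜) • T (e i), fun i => ?_, fun x => ?_⟩
  · rw [norm_smul, RCLike.norm_ofReal, abs_of_pos (inv_pos.2 (hpos i)),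
      inv_mul_cancel₀ (hpos i).ne']
  let φ : StrongDual 𝕜 E := (ContinuousLinearMap.apply 𝕜 𝕜 x).comp T
  have hφ : ‖φ‖ ≤ ‖x‖ := by
    refine ContinuousLinearMap.opNorm_le_bound _ (norm_nonneg _) fun v => ?_
    calc ‖T v x‖ ≤ ‖T v‖ * ‖x‖ := (T v).le_opNorm x
      _ ≤ ‖v‖ * ‖x‖ := by
          gcongr
          exact (T.le_opNorm v).trans (mul_le_of_le_one_left (norm_nonneg _) hT)
      _ = _ := mul_comm _ _
  let w := (InnerProductSpace.toDual 𝕜 E).symm φ
  have hw : ‖w‖ ≤ ‖x‖ := by rwa [LinearIsometryEquiv.norm_map]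
  have hb := he.sum_inner_products_le (s := Finset.univ) w
  have hin : ∀ i, ‖inner 𝕜 (e i) w‖ = ‖T (e i) x‖ := by
    intro i
    rw [norm_inner_symm, InnerProductSpace.toDual_symm_apply]
    rfl
  simp only [hin] at hb
  calc _ ≤ ∑ i, 16 * ‖T (e i) x‖ ^ 2 := by
        refine Finset.sum_le_sum fun i _ => ?_
        rw [smul_apply, norm_smul, RCLike.norm_ofReal, abs_of_pos (inv_pos.2 (hpos i)), mul_pow]
        gcongr
        have : ‖T (e i)‖⁻¹ ≤ 4 := by
          rw [inv_le_comm₀ (hpos i) (by norm_num)]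
          simpa using hp i
        calc _ ≤ (4 : ℝ) ^ 2 := by gcongr
          _ = 16 := by norm_num
    _ ≤ 16 * ‖w‖ ^ 2 := by rw [← Finset.mul_sum]; gcongr
    _ ≤ _ := by gcongr

end Vale.Agent.P129
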