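import Vale.Agent.P129.LemL

/-! Unit functionals that are summable on a dense set give a separable quotient. -/

set_option maxSynthPendingDepth 3

open Filter Topology Set Submodule

namespace Vale.Agent.P129

variable {𝕜 X : Type*} [RCLike 𝕜] [NormedAddCommGroup X] [NormedSpace 𝕜 X]

/-- Linear combination of a sequence of functionals. -/
noncomputable abbrev lc (g : ℕ → StrongDual 𝕜 X) : (ℕ →₀ 𝕜) →ₗ[𝕜] StrongDual 𝕜 X :=
  Finsupp.linearCombination 𝕜 g

theorem lc_apply (g : ℕ → StrongDual 𝕜 X) (a : ℕ →₀ 𝕜) (x : X) :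
    lc g a x = ∑ i ∈ a.support, a i * g i x := by
  simp [lc, Finsupp.linearCombination_apply, Finsupp.sum]

theorem norm_lc_apply_le (g : ℕ → StrongDual 𝕜 X) (a : ℕ →₀ 𝕜) (x : X) :
    ‖lc g a x‖ ≤ ∑ i ∈ a.support, ‖a i‖ * ‖g i x‖ := by
  rw [lc_apply]
  exact (norm_sum_le _ _).trans (le_of_eq (by simp))

theorem lemL' [CompleteSpace X] (g : ℕ → StrongDual 𝕜 X) (hne : ∀ i, g i ≠ 0)
    (hT : ∀ (x : X) (ε : ℝ), 0 < ε → ∃ n, ∀ a : ℕ →₀ 𝕜, (∀ i ∈ a.support, n ≤ i) →
      ‖lc g a x‖ ≤ ε * ‖lc g a‖) : SQ 𝕜 X := by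
  refine lemL g hne fun x ε hε => ?_
  obtain ⟨n, hn⟩ := hT x ε hε
  refine ⟨n, fun f hf => ?_⟩
  obtain ⟨a, ha, rfl⟩ := (Finsupp.mem_span_image_iff_linearCombination 𝕜).1 hf
  exact hn a fun i hi => ha hi

/-- A weak-star null sequence of unit functionals has a subsequence with bounded coefficient
functionals. -/
theorem exists_basic (u : ℕ → StrongDual 𝕜 X) (hu : ∀ k, ‖u k‖ = 1)
    (h0 : ∀ x, Tendsto (fun k => ‖u k x‖) atTop (𝓝 0)) :
    ∃ n : ℕ → ℕ, StrictMono n ∧ ∀ (a : ℕ →₀ 𝕜) (i : ℕ), ‖a i‖ ≤ 4 * ‖lc (u ∘ n) a‖ := by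
  classical
  have hnet : ∀ m, ∃ F : Set X, IsNet (span 𝕜 (u '' Iic m)) (1 / 4) F := fun m =>
    haveI := FiniteDimensional.span_of_finite 𝕜 ((finite_Iic m).image u)
    exists_net _ (by norm_num)
  choose F hF using hnet
  have hN : ∀ m : ℕ, ∃ N, ∀ k ≥ N, ∀ m' ∈ Iic m, ∀ z ∈ F m', ‖u k z‖ ≤ (1 / 2) ^ (m + 1) / 16 := by
    intro m
    rw [← eventually_atTop, eventually_all_finite (finite_Iic m)]
    intro m' _
    rw [eventually_all_finite (hF m').1]
    intro z _
    exact (h0 z).eventually (ge_mem_nhds (by positivity))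
  choose N hN using hN
  obtain ⟨n, hmono, hn2⟩ := exists_fast_seq N
  refine ⟨n, hmono, fun a => ?_⟩
  obtain ⟨k0, hk0⟩ : ∃ k0, ∀ i, ‖a i‖ ≤ ‖a k0‖ := by
    obtain ⟨k0, -, hk0⟩ := Finset.exists_max_image (insert 0 a.support) (fun i => ‖a i‖) (by simp)
    refine ⟨k0, fun i => ?_⟩
    by_cases hi : i ∈ a.support
    · exact hk0 i (Finset.mem_insert_of_mem hi)
    · rw [Finsupp.notMem_support_iff.1 hi, norm_zero]
      exact norm_nonneg _
  set v := u ∘ n with hv
  have hP : ∀ k, ‖lc v (a.filter (· < k))‖ ≤ 4 / 3 * (‖lc v a‖ + ‖a k0‖ / 8) := by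
    intro k
    cases k with
    | zero =>
      have : a.filter (· < 0) = 0 := by ext; simp
      rw [this, map_zero, norm_zero]
      positivity
    | succ k =>
      have hmem : lc v (a.filter (· < k + 1)) ∈ span 𝕜 (u '' Iic (n k)) := by
        rw [Finsupp.linearCombination_apply]
        refine Submodule.finsuppSum_mem _ _ _ _ fun i hi => smul_mem _ _ (subset_span ?_)
        rw [Finsupp.filter_apply] at hi
        have : i < k + 1 := by
          by_contra h
          simp [h] at hi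
        exact ⟨n i, hmono.monotone (Nat.lt_succ_iff.1 this), rfl⟩
      have key := (hF (n k)).norm_le hmem (c := ‖lc v a‖ + ‖a k0‖ / 8) fun z hz => by
        have e : lc v (a.filter (· < k + 1)) z = lc v a z - lc v (a.filter (¬ · < k + 1)) z := by
          rw [eq_sub_iff_add_eq, ← add_apply, ← map_add, Finsupp.filter_add_filter_not]
        rw [e]
        refine (norm_sub_le _ _).trans (add_le_add ?_ ?_)
        · exact ((lc v a).le_opNorm z).trans
            (mul_le_of_le_one_right (norm_nonneg _) ((hF _).2.1 z hz))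
        · refine (norm_lc_apply_le _ _ _).trans ?_
          calc _ ≤ ∑ i ∈ (a.filter (¬ · < k + 1)).support, ‖a k0‖ / 16 * (1 / 2) ^ i := by
                refine Finset.sum_le_sum fun i hi => ?_
                rw [Finsupp.support_filter, Finset.mem_filter] at hi
                rw [Finsupp.filter_apply_pos (¬ · < k + 1) a hi.2]
                obtain ⟨j, rfl⟩ : ∃ j, i = j + 1 := ⟨i - 1, by omega⟩
                have h1 := hN (n j) (n (j + 1)) (hn2 j) (n k)
                  (hmono.monotone (by omega : k ≤ j)) z hz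
                have h2 : (1 / 2 : ℝ) ^ (n j + 1) ≤ (1 / 2) ^ (j + 1) :=
                  pow_le_pow_of_le_one (by norm_num) (by norm_num)
                    (Nat.succ_le_succ (hmono.id_le j))
                calc _ ≤ ‖a k0‖ * ((1 / 2) ^ (j + 1) / 16) := by
                      gcongr
                      · exact hk0 _
                      · exact h1.trans (by gcongr)
                  _ = _ := by ring
            _ ≤ ‖a k0‖ / 16 * 2 := by
                rw [← Finset.mul_sum]
                gcongr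
                exact (summable_geometric_two.sum_le_tsum _ fun i _ => by positivity).trans
                  tsum_geometric_two.le
            _ = _ := by ring
      linarith
  have e : lc v (a.filter (· < k0 + 1)) - lc v (a.filter (· < k0)) = a k0 • v k0 := by
    rw [← map_sub, ← Finsupp.linearCombination_single]
    congr 1
    ext i
    simp only [Finsupp.coe_sub, Pi.sub_apply, Finsupp.filter_apply, Finsupp.single_apply]
    rcases lt_trichotomy i k0 with h | h | h
    · simp [h, h.ne', Nat.lt_succ_of_lt h]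
    · simp [h]
    · simp [h.ne, not_lt.2 h.le, not_lt.2 (Nat.succ_le_of_lt h)]
  have h1 : ‖a k0‖ ≤ ‖lc v (a.filter (· < k0 + 1))‖ + ‖lc v (a.filter (· < k0))‖ := by
    refine le_trans (le_of_eq ?_) (norm_sub_le _ _)
    rw [e, norm_smul, hv, Function.comp_apply, hu, mul_one]
  intro i
  have := hP k0
  have := hP (k0 + 1)
  have := hk0 i
  linarith

theorem sq_of_dense_summable [CompleteSpace X] (u : ℕ → StrongDual 𝕜 X) (hu : ∀ k, ‖u k‖ = 1)
    (hd : Dense {x : X | Summable fun k => ‖u k x‖}) : SQ 𝕜 X := by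
  have h0 : ∀ x, Tendsto (fun k => ‖u k x‖) atTop (𝓝 0) := by
    intro x
    rw [Metric.tendsto_atTop]
    intro ε hε
    obtain ⟨w, hw, hxw⟩ := hd.exists_dist_lt x (half_pos hε)
    obtain ⟨N, hN⟩ := Metric.tendsto_atTop.1 hw.tendsto_atTop_zero _ (half_pos hε)
    refine ⟨N, fun k hk => ?_⟩
    have h1 := hN k hk
    rw [Real.dist_0_eq_abs, abs_norm] at h1 ⊢
    rw [dist_eq_norm] at hxw
    have h2 : ‖u k (x - w)‖ ≤ ‖x - w‖ := by simpa [hu] using (u k).le_opNorm (x - w)
    have h3 : ‖u k x‖ ≤ ‖u k w‖ + ‖u k (x - w)‖ := by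
      rw [map_sub]
      exact norm_le_norm_add_norm_sub' _ _
    linarith
  obtain ⟨n, hmono, hn⟩ := exists_basic u hu h0
  refine lemL' (u ∘ n) (fun i h => ?_) fun x ε hε => ?_
  · have := hu (n i)
    rw [Function.comp_apply] at h
    simp [h] at this
  obtain ⟨w, hw, hxw⟩ := hd.exists_dist_lt x (half_pos hε)
  have hs : Summable fun k => ‖u (n k) w‖ := hw.comp_injective hmono.injective
  obtain ⟨s, hs⟩ := summable_iff_vanishing_norm.1 hs (ε / 8) (by positivity)
  refine ⟨s.sup id + 1, fun a ha => ?_⟩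
  have hdis : Disjoint a.support s := by
    rw [Finset.disjoint_left]
    intro i hi his
    have := ha i hi
    have := Finset.le_sup (f := id) his
    simp only [id] at this
    omega
  have h1 := (le_abs_self _).trans (hs _ hdis).le
  have h2 : ‖lc (u ∘ n) a w‖ ≤ 4 * ‖lc (u ∘ n) a‖ * (ε / 8) := by
    refine (norm_lc_apply_le _ _ _).trans (le_trans ?_ (mul_le_mul_of_nonneg_left h1 (by positivity)))
    rw [Finset.mul_sum]
    exact Finset.sum_le_sum fun i _ => mul_le_mul_of_nonneg_right (hn a i) (norm_nonneg _)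
  rw [dist_eq_norm] at hxw
  have h3 : ‖lc (u ∘ n) a (x - w)‖ ≤ ‖lc (u ∘ n) a‖ * (ε / 2) :=
    (ContinuousLinearMap.le_opNorm _ _).trans (by gcongr)
  have h4 : ‖lc (u ∘ n) a x‖ ≤ ‖lc (u ∘ n) a w‖ + ‖lc (u ∘ n) a (x - w)‖ := by
    rw [map_sub]
    exact norm_le_norm_add_norm_sub' _ _
  linarith

end Vale.Agent.P129
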