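import Mathlib

/-! Free sequences for measures defined on all subsets. -/

open Filter Topology Set MeasureTheory

namespace Vale.Agent.P129

variable {Ω : Type*} [MeasurableSpace Ω] [DiscreteMeasurableSpace Ω]
  [MeasurableSpace (List Ω)] [DiscreteMeasurableSpace (List Ω)]

/-- Iterated measure on lists of length `n`. -/
noncomputable def iterM (μ : Measure Ω) : ℕ → Measure (List Ω)
  | 0 => Measure.dirac []
  | n + 1 => μ.bind fun ω => (iterM μ n).map (ω :: ·)

theorem iterM_prob (μ : Measure Ω) [IsProbabilityMeasure μ] (n : ℕ) :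
    IsProbabilityMeasure (iterM μ n) := by
  induction n with
  | zero => exact Measure.dirac.isProbabilityMeasure
  | succ n ih =>
    exact isProbabilityMeasure_bind Measurable.of_discrete.aemeasurable
      (Eventually.of_forall fun ω =>
        Measure.isProbabilityMeasure_map Measurable.of_discrete.aemeasurable)

omit [DiscreteMeasurableSpace Ω] in
theorem ae_iterM_zero (μ : Measure Ω) (p : List Ω → Prop) : (∀ᵐ t ∂iterM μ 0, p t) ↔ p [] :=
  ae_dirac_iff MeasurableSet.of_discrete

theorem ae_iterM_succ (μ : Measure Ω) (n : ℕ) (p : List Ω → Prop) :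
    (∀ᵐ t ∂iterM μ (n + 1), p t) ↔ ∀ᵐ ω ∂μ, ∀ᵐ t ∂iterM μ n, p (ω :: t) := by
  rw [ae_iff, iterM, Measure.bind_apply MeasurableSet.of_discrete
    Measurable.of_discrete.aemeasurable, lintegral_eq_zero_iff Measurable.of_discrete]
  refine eventually_congr (Eventually.of_forall fun ω => ?_)
  beta_reduce
  rw [Pi.zero_apply, Measure.map_apply Measurable.of_discrete MeasurableSet.of_discrete, ae_iff]
  rfl

theorem ae_free {X : Type*} (μ : Measure Ω) [IsProbabilityMeasure μ] (G : Ω → X → Prop)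
    (hG : ∀ x, ∀ᵐ ω ∂μ, G ω x)
    (hm : ∀ d : List Ω → X, MeasurableSet {z : Ω × List Ω | G z.1 (d z.2)}) (n : ℕ)
    (d : List Ω → X) :
    ∀ᵐ t ∂iterM μ n, ∀ l1 ω l2, t = l1 ++ ω :: l2 → G ω (d (l1 ++ l2)) := by
  induction n generalizing d with
  | zero =>
    rw [ae_iterM_zero]
    intro l1 ω l2 h
    simp at h
  | succ n ih =>
    have := iterM_prob μ n
    rw [ae_iterM_succ]
    have h1 : ∀ᵐ ω ∂μ, ∀ᵐ t ∂iterM μ n, G ω (d t) :=
      (Measure.ae_ae_comm (p := fun ω t => G ω (d t)) (hm d)).2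
        (Eventually.of_forall fun t => hG _)
    filter_upwards [h1] with ω0 h0
    filter_upwards [h0, ih fun t => d (ω0 :: t)] with t ht1 ht2 l1 ω l2 h
    cases l1 with
    | nil =>
      obtain ⟨rfl, rfl⟩ := List.cons.inj h
      exact ht1
    | cons a l1 =>
      obtain ⟨rfl, h'⟩ := List.cons.inj h
      exact ht2 l1 ω l2 h'

theorem exists_free {X : Type*} (μ : Measure Ω) [IsProbabilityMeasure μ] (G : Ω → X → Prop)
    (hG : ∀ x, ∀ᵐ ω ∂μ, G ω x)
    (hm : ∀ d : List Ω → X, MeasurableSet {z : Ω × List Ω | G z.1 (d z.2)})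
    (d : ℕ → List Ω → X) :
    ∃ w : ℕ → Ω, ∀ (k : ℕ) (A : Finset ℕ), k ∉ A →
      ∃ l : List Ω, (∀ i ∈ A, w i ∈ l) ∧ ∀ j, G (w k) (d j l) := by
  let Free : List Ω → Prop := fun t => ∀ j l1 ω l2, t = l1 ++ ω :: l2 → G ω (d j (l1 ++ l2))
  let Good : List Ω → Prop := fun l => ∀ n, ∀ᵐ t ∂iterM μ n, Free (l ++ t)
  have h0 : Good [] := fun n => ae_all_iff.2 fun j => ae_free μ G hG hm n (d j)
  have hstep : ∀ l, Good l → ∃ ω, Good (l ++ [ω]) := by
    intro l hl
    have : ∀ᵐ ω ∂μ, Good (l ++ [ω]) := by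
      refine ae_all_iff.2 fun n => ?_
      simpa using (ae_iterM_succ μ n _).1 (hl (n + 1))
    exact this.exists
  obtain ⟨ω0, -⟩ := hstep _ h0
  have : Nonempty Ω := ⟨ω0⟩
  choose! nx hnx using hstep
  let L : ℕ → List Ω := fun n => Nat.rec [] (fun _ l => l ++ [nx l]) n
  have hL : ∀ n, Good (L n) := fun n => Nat.rec h0 (fun _ ih => hnx _ ih) n
  have hLw : ∀ n, L n = (List.range n).map fun i => nx (L i) := by
    intro n
    induction n with
    | zero => rfl
    | succ n ih =>
      rw [List.range_succ, List.map_append, ← ih]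
      rfl
  refine ⟨fun i => nx (L i), fun k A hk => ?_⟩
  let m := A.sup id
  have hfree : Free (L (k + 1 + m)) := by simpa using (ae_iterM_zero μ _).1 (hL (k + 1 + m) 0)
  refine ⟨L k ++ (List.range m).map fun i => nx (L (k + 1 + i)), fun i hi => ?_,
    fun j => hfree j _ _ _ ?_⟩
  · rw [hLw k, List.mem_append, List.mem_map, List.mem_map]
    have h1 : i ≤ m := Finset.le_sup (f := id) hi
    rcases lt_trichotomy i k with h | h | h
    · exact Or.inl ⟨i, List.mem_range.2 h, rfl⟩
    · exact absurd (h ▸ hi) hk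
    · refine Or.inr ⟨i - (k + 1), List.mem_range.2 (by omega), ?_⟩
      rw [Nat.add_sub_cancel' h]
  · rw [hLw (k + 1 + m), List.range_add, List.range_succ, List.map_append, List.map_append,
      ← hLw k]
    simp

end Vale.Agent.P129
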