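import Vale.Agent.P129.Basic

/-! The Johnson-Rosenthal type selection lemma. -/

set_option maxSynthPendingDepth 3

open Filter Topology Set Submodule

namespace Vale.Agent.P129

variable {𝕜 X : Type*} [RCLike 𝕜] [NormedAddCommGroup X] [NormedSpace 𝕜 X]

/-- Successive approximation. -/
theorem succ_approx [CompleteSpace X] (S : Submodule 𝕜 (StrongDual 𝕜 X)) (D : Submodule 𝕜 X)
    (h : ∀ (x : X) (c η : ℝ), 0 < c → 0 < η → (∀ f ∈ S, ‖f x‖ ≤ c * ‖f‖) →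
      ∃ y ∈ D, ‖y‖ ≤ 2 * c ∧ ∀ f ∈ S, ‖f (x - y)‖ ≤ η * ‖f‖) (x : X) :
    ∃ y ∈ closure (D : Set X), ∀ f ∈ S, f x = f y := by
  classical
  set C : ℝ := ‖x‖ + 1 with hC
  have hCpos : 0 < C := by positivity
  let P : ℕ → X → Prop := fun j r => (∀ f ∈ S, ‖f r‖ ≤ C * (1 / 2) ^ j * ‖f‖) ∧ x - r ∈ D
  have step : ∀ j r, P j r → ∃ r', P (j + 1) r' ∧ dist r r' ≤ 2 * C * (1 / 2) ^ j := by
    intro j r hr
    obtain ⟨y, hyD, hy, hf⟩ := h r (C * (1 / 2) ^ j) (C * (1 / 2) ^ (j + 1)) (by positivity)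
      (by positivity) hr.1
    refine ⟨r - y, ⟨hf, ?_⟩, ?_⟩
    · have : x - (r - y) = (x - r) + y := by abel
      rw [this]
      exact D.add_mem hr.2 hyD
    · rw [dist_eq_norm, sub_sub_cancel]
      linarith
  choose! nx hnx using step
  let r : ℕ → X := fun j => Nat.rec x nx j
  have hr : ∀ j, P j (r j) := by
    intro j
    induction j with
    | zero =>
      refine ⟨fun f _ => ?_, by simp [r]⟩
      calc ‖f x‖ ≤ ‖f‖ * ‖x‖ := f.le_opNorm x
        _ ≤ ‖f‖ * C := by gcongr; linarith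
        _ = _ := by ring
    | succ j ih => exact (hnx j _ ih).1
  have hcau : CauchySeq r :=
    cauchySeq_of_le_geometric (1 / 2) (2 * C) (by norm_num) fun j => (hnx j _ (hr j)).2
  obtain ⟨m, hm⟩ := cauchySeq_tendsto_of_complete hcau
  refine ⟨x - m, mem_closure_of_tendsto (tendsto_const_nhds.sub hm)
    (Eventually.of_forall fun j => (hr j).2), fun f hf => ?_⟩
  have h1 : Tendsto (fun j => ‖f (r j)‖) atTop (𝓝 ‖f m‖) := ((f.continuous.tendsto m).comp hm).norm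
  have h2 : Tendsto (fun j : ℕ => C * (1 / 2) ^ j * ‖f‖) atTop (𝓝 (C * 0 * ‖f‖)) :=
    ((tendsto_pow_atTop_nhds_zero_of_lt_one (by norm_num) (by norm_num)).const_mul C).mul_const _
  have h3 : ‖f m‖ ≤ C * 0 * ‖f‖ := le_of_tendsto_of_tendsto' h1 h2 fun j => (hr j).1 f hf
  have h4 : f m = 0 := by simpa using h3
  rw [map_sub, h4, sub_zero]

theorem norm_smul_inv_le {y : X} {c : ℝ} (hc : 0 < c) (hy : ‖y‖ ≤ c) :
    ‖((c⁻¹ : ℝ) : 𝕜) • y‖ ≤ 1 := by
  rw [norm_smul, RCLike.norm_ofReal, abs_of_pos (inv_pos.2 hc), inv_mul_le_iff₀ hc, mul_one]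
  exact hy

theorem exists_fast_seq (N : ℕ → ℕ) : ∃ n : ℕ → ℕ, StrictMono n ∧ ∀ j, N (n j) ≤ n (j + 1) := by
  let n : ℕ → ℕ := fun j => Nat.rec 0 (fun _ a => max (a + 1) (N a)) j
  exact ⟨n, strictMono_nat_of_lt_succ fun j =>
    lt_of_lt_of_le (Nat.lt_succ_self _) (le_max_left _ _), fun j => le_max_right _ _⟩

/-- Lemma L: uniform smallness on tail spans gives a separable quotient. -/
theorem lemL [CompleteSpace X] (g : ℕ → StrongDual 𝕜 X) (hne : ∀ i, g i ≠ 0)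
    (hT : ∀ (x : X) (ε : ℝ), 0 < ε → ∃ n, ∀ f ∈ span 𝕜 (g '' Ici n), ‖f x‖ ≤ ε * ‖f‖) :
    SQ 𝕜 X := by
  have hfinT : ∀ (F : Set X), F.Finite → ∀ ε : ℝ, 0 < ε →
      ∃ n, ∀ z ∈ F, ∀ f ∈ span 𝕜 (g '' Ici n), ‖f z‖ ≤ ε * ‖f‖ := by
    intro F hF ε hε
    have : ∀ᶠ n in atTop, ∀ z ∈ F, ∀ f ∈ span 𝕜 (g '' Ici n), ‖f z‖ ≤ ε * ‖f‖ := by
      rw [eventually_all_finite hF]
      intro z _
      obtain ⟨n, hn⟩ := hT z ε hε
      filter_upwards [eventually_ge_atTop n] with m hm f hf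
      exact hn f (span_mono (image_mono (Ici_subset_Ici.2 hm)) hf)
    exact this.exists
  let δ : ℕ → ℝ := fun m => 1 / ((m : ℝ) + 4)
  have hδ : ∀ m, 0 < δ m := fun m => by positivity
  have hδ4 : ∀ m, δ m ≤ 1 / 4 := fun m => by
    apply one_div_le_one_div_of_le (by norm_num)
    have : (0 : ℝ) ≤ m := Nat.cast_nonneg m
    linarith
  have hnet : ∀ m, ∃ F : Set X, IsNet (span 𝕜 (g '' Iic m)) (δ m) F := fun m =>
    haveI := FiniteDimensional.span_of_finite 𝕜 ((finite_Iic m).image g)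
    exists_net _ (hδ m)
  choose F hF using hnet
  choose N hN using fun m => hfinT (F m) (hF m).1 (δ m) (hδ m)
  obtain ⟨n, hmono, hn2⟩ := exists_fast_seq N
  let S : Submodule 𝕜 (StrongDual 𝕜 X) := span 𝕜 (range (g ∘ n))
  have hG : ∀ k, span 𝕜 (range fun i : Iic k => g (n i)) ≤ span 𝕜 (g '' Iic (n k)) := by
    intro k
    refine span_mono ?_
    rintro _ ⟨i, rfl⟩
    exact ⟨n i, hmono.monotone i.2, rfl⟩
  have hdec : ∀ k, ∀ f ∈ S, ∃ f1 ∈ span 𝕜 (range fun i : Iic k => g (n i)),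
      ∃ f2 ∈ span 𝕜 (g '' Ici (n (k + 1))), f1 + f2 = f ∧ ‖f1‖ ≤ 3 * ‖f‖ ∧ ‖f2‖ ≤ 4 * ‖f‖ := by
    intro k f hf
    have : S ≤ span 𝕜 (range fun i : Iic k => g (n i)) ⊔ span 𝕜 (g '' Ici (n (k + 1))) := by
      rw [← span_union]
      refine span_mono ?_
      rintro _ ⟨i, rfl⟩
      rcases le_or_gt i k with h | h
      · exact Or.inl ⟨⟨i, h⟩, rfl⟩
      · exact Or.inr ⟨n i, hmono.monotone h, rfl⟩
    obtain ⟨f1, h1, f2, h2, h12⟩ := mem_sup.1 (this hf)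
    have h2' : f2 ∈ span 𝕜 (g '' Ici (N (n k))) :=
      span_mono (image_mono (Ici_subset_Ici.2 (hn2 k))) h2
    have hb : ‖f2‖ ≤ ‖f‖ + ‖f1‖ := by
      rw [← h12]
      simpa using norm_sub_le (f1 + f2) f1
    have key : ‖f1‖ ≤ (‖f‖ + δ (n k) * ‖f2‖) + δ (n k) * ‖f1‖ := by
      refine (hF (n k)).norm_le (hG k h1) fun z hz => ?_
      have e : f1 z = f z - f2 z := by rw [← h12]; simp
      rw [e]
      refine (norm_sub_le _ _).trans (add_le_add ?_ (hN _ z hz f2 h2'))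
      exact (f.le_opNorm z).trans (mul_le_of_le_one_right (norm_nonneg _) ((hF _).2.1 z hz))
    have k1 : δ (n k) * ‖f2‖ ≤ 1 / 4 * ‖f2‖ := by gcongr; exact hδ4 _
    have k2 : δ (n k) * ‖f1‖ ≤ 1 / 4 * ‖f1‖ := by gcongr; exact hδ4 _
    have := norm_nonneg f
    exact ⟨f1, h1, f2, h2, h12, by linarith, by linarith⟩
  refine sq_of S ?_ (⋃ m, F m) (countable_iUnion fun m => (hF m).1.countable)
    (succ_approx S _ ?_)
  · intro hfin
    obtain ⟨F0, hF0⟩ := exists_net S (δ := 1 / 4) (by norm_num)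
    obtain ⟨k, hk⟩ := hfinT F0 hF0.1 (1 / 4) (by norm_num)
    have h1 : g (n k) ∈ S := subset_span ⟨k, rfl⟩
    have h2 : g (n k) ∈ span 𝕜 (g '' Ici k) := subset_span ⟨n k, hmono.id_le k, rfl⟩
    have h3 := hF0.norm_le h1 fun z hz => hk z hz _ h2
    have h4 := norm_pos_iff.2 (hne (n k))
    linarith
  · intro x c η hc hη hx
    set θ : ℝ := η / (4 + 14 * c) with hθ
    have hθ0 : 0 < θ := by positivity
    obtain ⟨k1, hk1⟩ := hT x θ hθ0
    obtain ⟨k2, hk2⟩ := exists_nat_gt (1 / θ)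
    let k := max k1 k2
    have hδk : δ (n k) ≤ θ := by
      have h1 : (k2 : ℝ) ≤ ((n k : ℕ) : ℝ) := by
        exact_mod_cast (le_max_right k1 k2).trans (hmono.id_le k)
      change 1 / (((n k : ℕ) : ℝ) + 4) ≤ θ
      rw [one_div_le (by positivity) hθ0]
      linarith
    have hSG : span 𝕜 (range fun i : Iic k => g (n i)) ≤ S := by
      refine span_mono ?_
      rintro _ ⟨i, rfl⟩
      exact ⟨i, rfl⟩
    obtain ⟨y0, hy0, hy0f⟩ := helly (fun i : Iic k => g (n i)) x hc.le hc fun f hf =>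
      hx f (hSG hf)
    have hc2 : 0 < 2 * c := by positivity
    obtain ⟨z, hz, hzf⟩ := (hF (n k)).2.2 _ (norm_smul_inv_le (𝕜 := 𝕜) hc2 (by linarith))
    have hnc : ‖((2 * c : ℝ) : 𝕜)‖ = 2 * c := by rw [RCLike.norm_ofReal, abs_of_pos hc2]
    refine ⟨((2 * c : ℝ) : 𝕜) • z, smul_mem _ _ (subset_span (mem_iUnion.2 ⟨_, hz⟩)), ?_,
      fun f hf => ?_⟩
    · rw [norm_smul, hnc]
      exact mul_le_of_le_one_right hc2.le ((hF _).2.1 z hz)
    obtain ⟨f1, h1, f2, h2, h12, hb1, hb2⟩ := hdec k f hf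
    have e : f (x - ((2 * c : ℝ) : 𝕜) • z) =
        ((2 * c : ℝ) : 𝕜) * (f1 ((((2 * c)⁻¹ : ℝ) : 𝕜) • y0) - f1 z) + f2 x
          - ((2 * c : ℝ) : 𝕜) * f2 z := by
      have hne : ((2 * c : ℝ) : 𝕜) ≠ 0 := by exact_mod_cast hc2.ne'
      rw [← h12, map_smul, hy0f f1 h1, RCLike.ofReal_inv]
      simp only [add_apply, map_sub, map_smul, smul_eq_mul]
      field_simp
      ring
    have b1 := hzf f1 (hG k h1)
    have b2 := hk1 f2 (span_mono (image_mono (Ici_subset_Ici.2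
      (((le_max_left k1 k2).trans (Nat.le_succ k)).trans (hmono.id_le (k + 1))))) h2)
    have b3 := hN _ z hz f2 (span_mono (image_mono (Ici_subset_Ici.2 (hn2 k))) h2)
    have hf0 := norm_nonneg f
    rw [e]
    calc _ ≤ 2 * c * ‖f1 ((((2 * c)⁻¹ : ℝ) : 𝕜) • y0) - f1 z‖ + ‖f2 x‖ + 2 * c * ‖f2 z‖ := by
          refine (norm_sub_le _ _).trans (add_le_add ((norm_add_le _ _).trans ?_) ?_)
          · rw [norm_mul, hnc]
          · rw [norm_mul, hnc]
      _ ≤ 2 * c * (θ * (3 * ‖f‖)) + θ * (4 * ‖f‖) + 2 * c * (θ * (4 * ‖f‖)) := by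
          gcongr
          · exact b1.trans (by gcongr)
          · exact b2.trans (by gcongr)
          · exact b3.trans (by gcongr)
      _ = η * ‖f‖ := by
          rw [hθ]
          field_simp
          ring

end Vale.Agent.P129
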