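import Mathlib

/-! Rademacher sums on a binary tree and the Khintchine inequality in `L¹`. -/

open Filter Topology Set

namespace Vale.Agent.P129

/-- Nodes of level `n` of the binary tree. -/
def Lv : ℕ → Type
  | 0 => Unit
  | n + 1 => Bool × Lv n

instance instFintypeLv : (n : ℕ) → Fintype (Lv n)
  | 0 => inferInstanceAs (Fintype Unit)
  | n + 1 => @instFintypeProd Bool (Lv n) _ (instFintypeLv n)

theorem sum_Lv_succ {M : Type*} [AddCommMonoid M] (n : ℕ) (F : Lv (n + 1) → M) :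
    ∑ t, F t = ∑ s : Lv n, (F (true, s) + F (false, s)) := by
  have h : ∀ G : Bool × Lv n → M, ∑ t, G t = ∑ s : Lv n, (G (true, s) + G (false, s)) := fun G => by
    rw [Fintype.sum_prod_type, Fintype.sum_bool, Finset.sum_add_distrib]
  exact h F

theorem sum_Lv_const (n : ℕ) (c : ℝ) : ∑ _t : Lv n, c = 2 ^ n * c := by
  induction n with
  | zero => exact (Fintype.sum_unique (ι := Unit) _).trans (by simp)
  | succ n ih => rw [sum_Lv_succ, Finset.sum_add_distrib, ih]; ring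

variable {𝕜 : Type*} [RCLike 𝕜]

/-- Rademacher sums. -/
noncomputable def rad : (n : ℕ) → Lv n → (ℕ →₀ 𝕜) →ₗ[𝕜] 𝕜
  | 0, _ => 0
  | n + 1, t => rad n t.2 + if t.1 then Finsupp.lapply n else -Finsupp.lapply n

theorem rad_true (n : ℕ) (s : Lv n) (a : ℕ →₀ 𝕜) :
    rad (n + 1) (true, s) a = rad n s a + a n := rfl

theorem rad_false (n : ℕ) (s : Lv n) (a : ℕ →₀ 𝕜) :
    rad (n + 1) (false, s) a = rad n s a - a n := (sub_eq_add_neg _ _).symm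

theorem rad_sq (n : ℕ) (a : ℕ →₀ 𝕜) :
    ∑ s : Lv n, ‖rad n s a‖ ^ 2 = 2 ^ n * ∑ j ∈ Finset.range n, ‖a j‖ ^ 2 := by
  induction n with
  | zero => simp [rad]
  | succ n ih =>
    rw [sum_Lv_succ, Finset.sum_range_succ]
    simp only [rad_true, rad_false, parallelogram_law_with_norm 𝕜]
    rw [← Finset.mul_sum, Finset.sum_add_distrib, ih, sum_Lv_const]
    ring

theorem norm_four (f a : 𝕜) :
    ‖f + a‖ ^ 4 + ‖f - a‖ ^ 4 ≤ 2 * (‖f‖ ^ 4 + 6 * ‖f‖ ^ 2 * ‖a‖ ^ 2 + ‖a‖ ^ 4) := by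
  have h1 := norm_add_sq (𝕜 := 𝕜) f a
  have h2 := norm_sub_sq (𝕜 := 𝕜) f a
  have h3 : |RCLike.re (inner 𝕜 f a)| ≤ ‖f‖ * ‖a‖ :=
    (RCLike.abs_re_le_norm _).trans (norm_inner_le_norm f a)
  have h4 := sq_le_sq' (abs_le.1 h3).1 (abs_le.1 h3).2
  have e1 : ‖f + a‖ ^ 4 = (‖f + a‖ ^ 2) ^ 2 := by ring
  have e2 : ‖f - a‖ ^ 4 = (‖f - a‖ ^ 2) ^ 2 := by ring
  rw [e1, e2, h1, h2]
  nlinarith

theorem rad_four (n : ℕ) (a : ℕ →₀ 𝕜) :
    ∑ s : Lv n, ‖rad n s a‖ ^ 4 ≤ 2 ^ n * (3 * (∑ j ∈ Finset.range n, ‖a j‖ ^ 2) ^ 2) := by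
  induction n with
  | zero => simp [rad]
  | succ n ih =>
    rw [sum_Lv_succ, Finset.sum_range_succ]
    simp only [rad_true, rad_false]
    refine (Finset.sum_le_sum fun s _ => norm_four _ _).trans ?_
    rw [← Finset.mul_sum, Finset.sum_add_distrib, Finset.sum_add_distrib, ← Finset.sum_mul,
      ← Finset.mul_sum, rad_sq, sum_Lv_const]
    have : 0 ≤ (2 : ℝ) ^ n * ‖a n‖ ^ 4 := by positivity
    rw [pow_succ 2 n]
    nlinarith

theorem rad_upper (n : ℕ) (a : ℕ →₀ 𝕜) :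
    ∑ s : Lv n, ‖rad n s a‖ ≤ 2 ^ n * √(∑ j ∈ Finset.range n, ‖a j‖ ^ 2) := by
  have h := Real.sum_mul_le_sqrt_mul_sqrt Finset.univ (fun _ : Lv n => (1 : ℝ))
    (fun s => ‖rad n s a‖)
  simp only [one_mul, one_pow] at h
  rw [rad_sq, sum_Lv_const, mul_one, Real.sqrt_mul (by positivity), ← mul_assoc,
    Real.mul_self_sqrt (by positivity)] at h
  exact h

theorem rad_lower (n : ℕ) (a : ℕ →₀ 𝕜) :
    2 ^ n * (5 / 16 * √(∑ j ∈ Finset.range n, ‖a j‖ ^ 2)) ≤ ∑ s : Lv n, ‖rad n s a‖ := by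
  set S := ∑ j ∈ Finset.range n, ‖a j‖ ^ 2 with hS
  have hS0 : 0 ≤ S := by positivity
  rcases (Real.sqrt_nonneg S).eq_or_lt with h | h
  · rw [← h, mul_zero, mul_zero]
    positivity
  set σ := √S with hσ
  have hσ2 : σ ^ 2 = S := Real.sq_sqrt hS0
  have key : ∀ t : ℝ, 0 ≤ t → σ ^ 2 * t ^ 2 / 2 - t ^ 4 / 16 ≤ σ ^ 3 * t := by
    intro t ht
    have : 0 ≤ t * (σ ^ 3 - σ ^ 2 * t / 2 + t ^ 3 / 16) := by
      refine mul_nonneg ht ?_
      nlinarith [mul_nonneg ht (sq_nonneg (t - 2 * σ)), mul_nonneg h.le (sq_nonneg (t - 2 * σ))]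
    nlinarith
  have h1 := Finset.sum_le_sum fun (s : Lv n) (_ : s ∈ Finset.univ) =>
    key _ (norm_nonneg (rad n s a))
  rw [Finset.sum_sub_distrib, ← Finset.sum_div, ← Finset.sum_div, ← Finset.mul_sum,
    ← Finset.mul_sum, rad_sq, ← hS] at h1
  have h2 := rad_four n a
  rw [← hS] at h2
  refine le_of_mul_le_mul_left (le_trans ?_ h1) (pow_pos h 3)
  rw [← hσ2] at h2 ⊢
  nlinarith

end Vale.Agent.P129
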