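import Vale.Agent.P129.DR
import Vale.Agent.P129.Dense

/-! Random unit functionals that are almost surely small at every fixed point. -/

set_option maxSynthPendingDepth 3

open Filter Topology Set Submodule MeasureTheory

namespace Vale.Agent.P129

/-- The space has finite partitions into pieces of arbitrarily small measure. -/
def SmallPieces {Ω : Type*} {m : MeasurableSpace Ω} (μ : Measure Ω) : Prop :=
  ∀ η : ℝ, 0 < η → ∃ (N : ℕ) (p : Ω → Fin N), ∀ i, μ (p ⁻¹' {i}) ≤ ENNReal.ofReal η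

theorem smallPieces_borel (ν : Measure ℝ) [IsFiniteMeasure ν] (h : ∀ x, ν {x} = 0) :
    SmallPieces ν := by
  classical
  intro η hη
  have hη' : (0 : ENNReal) < ENNReal.ofReal η := ENNReal.ofReal_pos.2 hη
  have hU : ∀ x : ℝ, ∃ U, {x} ⊆ U ∧ IsOpen U ∧ ν U < ENNReal.ofReal η := fun x =>
    Set.exists_isOpen_lt_of_lt _ _ (by rwa [h])
  choose U hxU hUo hUm using hU
  obtain ⟨K, -, hK, hKm⟩ := MeasurableSet.univ.exists_isCompact_sdiff_lt (μ := ν)
    (measure_ne_top _ _) hη'.ne'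
  obtain ⟨t, ht⟩ := hK.elim_finite_subcover U hUo fun x _ => mem_iUnion.2 ⟨x, hxU x rfl⟩
  let A : Option t → Set ℝ := fun o => o.elim (univ \ K) fun x => U x
  have hA : ∀ o, ν (A o) ≤ ENNReal.ofReal η := by
    rintro (_ | x)
    · exact hKm.le
    · exact (hUm x).le
  have hcov : ∀ x, ∃ o, x ∈ A o := by
    intro x
    by_cases hx : x ∈ K
    · obtain ⟨y, hy, hxy⟩ := mem_iUnion₂.1 (ht hx)
      exact ⟨some ⟨y, hy⟩, hxy⟩
    · exact ⟨none, trivial, hx⟩
  choose q hq using hcov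
  refine ⟨_, Fintype.equivFin (Option t) ∘ q, fun i => le_trans (measure_mono fun x hx => ?_)
    (hA ((Fintype.equivFin (Option t)).symm i))⟩
  have : (Fintype.equivFin (Option t)).symm i = q x := by
    rw [Equiv.symm_apply_eq]
    exact hx.symm
  rw [this]
  exact hq x

theorem smallPieces_top (μ : @Measure ℝ ⊤) [IsFiniteMeasure μ] (h : ∀ x, μ {x} = 0) :
    SmallPieces μ := by
  intro η hη
  have hle : Real.measurableSpace ≤ ⊤ := le_top
  have := isFiniteMeasure_trim (μ := μ) hle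
  obtain ⟨N, p, hp⟩ := smallPieces_borel (μ.trim hle) (fun x => by
    rw [trim_measurableSet_eq hle (measurableSet_singleton x), h]) η hη
  exact ⟨N, p, fun i => (le_trim hle).trans (hp i)⟩

variable {𝕜 X : Type*} [RCLike 𝕜] [NormedAddCommGroup X] [NormedSpace 𝕜 X]

theorem exists_random (hX : ¬ FiniteDimensional 𝕜 X) {Ω : Type*} {m : MeasurableSpace Ω}
    (μ : Measure Ω) (hc : SmallPieces μ) :
    ∃ u : ℕ → Ω → StrongDual 𝕜 X, (∀ k ω, ‖u k ω‖ = 1) ∧ (∀ k, (range (u k)).Finite) ∧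
      ∀ x, ∀ᵐ ω ∂μ, ∀ᶠ k in atTop, ‖u k ω x‖ ≤ (1 / 2) ^ k * ‖x‖ := by
  classical
  choose N p hp using fun k : ℕ => hc ((1 / 8) ^ k) (by positivity)
  choose v hv1 hv using fun k => dvoretzky_rogers hX (N k)
  refine ⟨fun k ω => v k (p k ω), fun k ω => hv1 _ _, fun k =>
    (finite_range (v k)).subset (range_comp_subset_range (p k) (v k)), fun x => ?_⟩
  let s : ℕ → Set Ω := fun k => {ω | (1 / 2) ^ k * ‖x‖ < ‖v k (p k ω) x‖}
  have hs : ∀ k, μ (s k) ≤ ENNReal.ofReal (16 * (1 / 2) ^ k) := by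
    intro k
    let B : Finset (Fin (N k)) := Finset.univ.filter fun i => (1 / 2) ^ k * ‖x‖ < ‖v k i x‖
    have hB : (B.card : ℝ) * (1 / 8) ^ k ≤ 16 * (1 / 2) ^ k := by
      rcases eq_or_ne x 0 with rfl | hx
      · have : B = ∅ := by ext i; simp [B]
        rw [this, Finset.card_empty, Nat.cast_zero, zero_mul]
        positivity
      have hx0 : 0 < ‖x‖ ^ 2 := by positivity
      have h1 : (B.card : ℝ) * ((1 / 2) ^ k * ‖x‖) ^ 2 ≤ 16 * ‖x‖ ^ 2 := by
        refine le_trans ?_ (hv k x)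
        refine le_trans ?_ (Finset.sum_le_sum_of_subset_of_nonneg (Finset.subset_univ B)
          fun _ _ _ => by positivity)
        rw [← nsmul_eq_mul]
        refine Finset.card_nsmul_le_sum _ _ _ fun i hi => ?_
        have := (Finset.mem_filter.1 hi).2
        gcongr
      have h2 : (B.card : ℝ) * ((1 / 2) ^ k) ^ 2 ≤ 16 := by
        refine le_of_mul_le_mul_right ?_ hx0
        rw [mul_assoc, ← mul_pow]
        exact h1
      have h3 : ((1 / 8 : ℝ)) ^ k = ((1 / 2) ^ k) ^ 2 * (1 / 2) ^ k := by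
        rw [← pow_mul, mul_comm k 2, pow_mul, ← mul_pow]
        norm_num
      rw [h3, ← mul_assoc]
      gcongr
    calc μ (s k) ≤ μ (⋃ i ∈ B, p k ⁻¹' {i}) := by
          refine measure_mono fun ω hω => mem_iUnion₂.2 ⟨p k ω, ?_, rfl⟩
          exact Finset.mem_filter.2 ⟨Finset.mem_univ _, hω⟩
      _ ≤ ∑ i ∈ B, μ (p k ⁻¹' {i}) := measure_biUnion_finset_le _ _
      _ ≤ B.card • ENNReal.ofReal ((1 / 8) ^ k) := Finset.sum_le_card_nsmul _ _ _ fun i _ => hp k i
      _ = ENNReal.ofReal (B.card * (1 / 8) ^ k) := by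
          rw [ENNReal.ofReal_mul (Nat.cast_nonneg _), ENNReal.ofReal_natCast, nsmul_eq_mul]
      _ ≤ _ := ENNReal.ofReal_le_ofReal hB
  have hsum : ∑' k, μ (s k) ≠ ⊤ :=
    ne_top_of_le_ne_top (summable_geometric_two.mul_left 16).tsum_ofReal_ne_top
      (ENNReal.tsum_le_tsum hs)
  filter_upwards [ae_eventually_notMem hsum] with ω hω
  filter_upwards [hω] with k hk
  exact not_lt.1 hk

theorem summable_of_eventually {u : ℕ → StrongDual 𝕜 X} {x : X}
    (h : ∀ᶠ k in atTop, ‖u k x‖ ≤ (1 / 2) ^ k * ‖x‖) : Summable fun k => ‖u k x‖ := by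
  refine Summable.of_norm_bounded_eventually_nat (summable_geometric_two.mul_right ‖x‖) ?_
  simpa using h

end Vale.Agent.P129
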