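import Vale.Agent.P129.Blk
import Vale.Agent.P129.Rad

/-! An `ℓ¹`-sequence in the dual gives a separable quotient. -/

set_option maxSynthPendingDepth 3

open Filter Topology Set Submodule

namespace Vale.Agent.P129

variable {𝕜 X : Type*} [RCLike 𝕜] [NormedAddCommGroup X] [NormedSpace 𝕜 X]

theorem exists_inj_sel {ι : Type*} [Countable ι] (M : ι → Set ℕ) (hM : ∀ i, (M i).Infinite) :
    ∃ m : ι → ℕ, Function.Injective m ∧ ∀ i, m i ∈ M i := by
  classical
  obtain ⟨e, he⟩ := exists_injective_nat ι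
  have h1 : ∀ n : ℕ, ∃ S : Set ℕ, S.Infinite ∧ ∀ i, e i = n → S = M i := by
    intro n
    by_cases h : ∃ i, e i = n
    · obtain ⟨i, rfl⟩ := h
      exact ⟨M i, hM i, fun j hj => by rw [he hj]⟩
    · exact ⟨univ, infinite_univ, fun j hj => absurd ⟨j, hj⟩ h⟩
  choose S hS1 hS2 using h1
  choose f hf1 hf2 using fun n a => (hS1 n).exists_gt a
  let m : ℕ → ℕ := fun n => Nat.rec (f 0 0) (fun n a => f (n + 1) a) n
  have hm : StrictMono m := strictMono_nat_of_lt_succ fun n => hf2 _ _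
  have hmS : ∀ n, m n ∈ S n := fun n => by cases n <;> exact hf1 _ _
  exact ⟨m ∘ e, hm.injective.comp he, fun i => hS2 _ i rfl ▸ hmS (e i)⟩

/-- Every block sequence is at least `δ` at some point of the ball, infinitely often. -/
def Big (δ : ℝ) (g : ℕ → StrongDual 𝕜 X) : Prop :=
  ∀ c : ℕ → ℕ →₀ 𝕜, Blk c → ∃ x : X, ‖x‖ ≤ 1 ∧ ∃ᶠ k in atTop, δ < ‖lc g (c k) x‖

theorem Big.refine {δ : ℝ} {g : ℕ → StrongDual 𝕜 X} (hg : ∀ k, ‖g k‖ ≤ 1) (hB : Big δ g)
    {S : Type*} [Fintype S] (M : S → Set ℕ) (hM : ∀ s, (M s).Infinite) (w : S → 𝕜) {η : ℝ}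
    (hη : 0 < η) : ∃ M' : S → Set ℕ, (∀ s, (M' s).Infinite) ∧ (∀ s, M' s ⊆ M s) ∧
      ∃ x : X, ‖x‖ ≤ 1 ∧ ∃ v : S → 𝕜, (∀ s, ∀ m ∈ M' s, ‖g m x - v s‖ ≤ η) ∧
        δ * ∑ s, ‖w s‖ ≤ ‖∑ s, w s * v s‖ := by
  classical
  rcases (Finset.sum_nonneg fun s (_ : s ∈ Finset.univ) => norm_nonneg (w s)).eq_or_lt with h | hW
  · exact ⟨M, hM, fun _ => subset_rfl, 0, by simp, 0, by simp [hη.le], by simp [← h]⟩
  set W := ∑ s, ‖w s‖ with hWdef
  obtain ⟨m, hm, hmM⟩ := exists_inj_sel (fun p : S × ℕ => M p.1) fun p => hM _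
  let c : ℕ → ℕ →₀ 𝕜 := fun k => ∑ s, Finsupp.single (m (s, k)) (((W⁻¹ : ℝ) : 𝕜) * w s)
  have hdis : ∀ (p q : S × ℕ) (a b : 𝕜), p ≠ q →
      Disjoint (Finsupp.single (m p) a).support (Finsupp.single (m q) b).support :=
    fun p q a b hpq => Disjoint.mono Finsupp.support_single_subset Finsupp.support_single_subset
      (Finset.disjoint_singleton.2 (hm.ne hpq))
  have hc : Blk c := by
    refine ⟨fun k => ?_, fun k l hkl => ?_⟩
    · rw [N1_sum _ _ fun s t hst => hdis _ _ _ _ fun e => hst (Prod.ext_iff.1 e).1]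
      simp only [N1_single, norm_mul, RCLike.norm_ofReal, abs_of_pos (inv_pos.2 hW)]
      rw [← Finset.mul_sum, inv_mul_cancel₀ hW.ne']
    · refine Disjoint.mono Finsupp.support_finsetSum Finsupp.support_finsetSum ?_
      rw [Finset.disjoint_biUnion_left]
      intro i _
      rw [Finset.disjoint_biUnion_right]
      exact fun j _ => hdis _ _ _ _ fun e => hkl (Prod.ext_iff.1 e).2
  obtain ⟨x, hx, hfr⟩ := hB c hc
  let K : Set (S → 𝕜) := Metric.closedBall 0 1 ∩ {y | δ * W ≤ ‖∑ s, w s * y s‖}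
  have hK : IsCompact K :=
    (isCompact_closedBall _ _).inter_right (isClosed_le continuous_const (by fun_prop))
  have hfr' : ∃ᶠ k in atTop, (fun s => g (m (s, k)) x) ∈ K := by
    refine hfr.mono fun k hk => ⟨?_, ?_⟩
    · rw [mem_closedBall_zero_iff, pi_norm_le_iff_of_nonneg zero_le_one]
      exact fun s => ((g _).le_opNorm x).trans (mul_le_one₀ (hg _) (norm_nonneg _) hx)
    · have e : lc g (c k) x = ((W⁻¹ : ℝ) : 𝕜) * ∑ s, w s * g (m (s, k)) x := by
        simp only [c, map_sum, Finsupp.linearCombination_single, sum_apply, smul_apply,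
          smul_eq_mul, Finset.mul_sum, mul_assoc]
      rw [e, norm_mul, RCLike.norm_ofReal, abs_of_pos (inv_pos.2 hW), inv_mul_eq_div,
        lt_div_iff₀ hW] at hk
      exact hk.le
  obtain ⟨v, hv, φ, hφ, hlim⟩ := hK.tendsto_subseq' hfr'
  obtain ⟨k0, hk0⟩ := Metric.tendsto_atTop.1 hlim η hη
  refine ⟨fun s => range fun k => m (s, φ (k + k0)), fun s => infinite_range_of_injective ?_,
    ?_, x, hx, v, ?_, hv.2⟩
  · intro k l hkl
    simpa using hφ.injective (Prod.ext_iff.1 (hm hkl)).2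
  · rintro s _ ⟨k, rfl⟩
    exact hmM (s, _)
  · rintro s _ ⟨k, rfl⟩
    have := (dist_le_pi_dist _ _ s).trans (hk0 (k + k0) (Nat.le_add_left _ _)).le
    rwa [dist_eq_norm] at this

/-- The invariant carried along the tree. -/
def Inv (g : ℕ → StrongDual 𝕜 X) (η B : ℝ) (a : ℕ →₀ 𝕜) (x : X) (N : ℕ) (M : Lv N → Set ℕ) :
    Prop :=
  ∃ v : Lv N → 𝕜, (∀ s, ∀ m ∈ M s, ‖g m x - v s‖ ≤ η) ∧ 2 ^ N * B ≤ ‖∑ s, rad N s a * v s‖

theorem Inv.succ {g : ℕ → StrongDual 𝕜 X} {η B : ℝ} {a : ℕ →₀ 𝕜} {x : X} {N : ℕ}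
    {M : Lv N → Set ℕ} (h : Inv g η B a x N M) {M' : Lv (N + 1) → Set ℕ}
    (hM : ∀ t, M' t ⊆ M t.2) : Inv g η B a x (N + 1) M' := by
  obtain ⟨v, hv1, hv2⟩ := h
  refine ⟨fun t => v t.2, fun t m hm => hv1 _ m (hM t hm), ?_⟩
  rw [sum_Lv_succ]
  have e : ∀ s : Lv N, rad (N + 1) (true, s) a * v s + rad (N + 1) (false, s) a * v s =
      2 * (rad N s a * v s) := fun s => by
    rw [rad_true, rad_false]
    ring
  rw [Finset.sum_congr rfl fun s _ => e s, ← Finset.mul_sum, norm_mul, RCLike.norm_ofNat, pow_succ]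
  linarith

theorem Big.sq [CompleteSpace X] {δ : ℝ} (hδ : 0 < δ) {g : ℕ → StrongDual 𝕜 X}
    (hg : ∀ k, ‖g k‖ ≤ 1) (hB : Big δ g) : SQ 𝕜 X := by
  obtain ⟨e, he, hdense⟩ := exists_dense_enum (𝕜 := 𝕜) (X := X)
  let T : ℕ → Type := fun n => {M : Lv n → Set ℕ // ∀ s, (M s).Infinite}
  have step : ∀ (n : ℕ) (M : T n), ∃ M' : T n, (∀ s, M'.1 s ⊆ M.1 s) ∧ ∃ x : X, ‖x‖ ≤ 1 ∧
      Inv g (δ / 16) (5 / 16 * δ * √(N2 (e n))) (e n) x n M'.1 := by
    intro n M
    obtain ⟨M', h1, h2, x, hx, v, hv1, hv2⟩ := hB.refine hg M.1 M.2 (fun s => rad n s (e n))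
      (η := δ / 16) (by positivity)
    refine ⟨⟨M', h1⟩, h2, x, hx, v, hv1, le_trans ?_ hv2⟩
    have := mul_le_mul_of_nonneg_left (rad_lower n (e n)) hδ.le
    rw [← N2_eq _ (he n)] at this
    linarith
  choose R hR1 x hx hR2 using step
  let M : (n : ℕ) → T n := fun n => Nat.rec (motive := T) ⟨fun _ => univ, fun _ => infinite_univ⟩
    (fun n M => ⟨fun t => (R n M).1 t.2, fun t => (R n M).2 t.2⟩) n
  have hinv : ∀ n N, n + 1 ≤ N →
      Inv g (δ / 16) (5 / 16 * δ * √(N2 (e n))) (e n) (x n (M n)) N (M N).1 := by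
    intro n N hN
    induction N, hN using Nat.le_induction with
    | base => exact (hR2 n (M n)).succ fun t => subset_rfl
    | succ N _ ih => exact ih.succ fun t => hR1 N (M N) t.2
  choose m hm using fun N s => ((M N).2 s).nonempty
  let Φ : ℕ → (ℕ →₀ 𝕜) →ₗ[𝕜] StrongDual 𝕜 X := fun N =>
    (((2 ^ N : ℝ)⁻¹ : ℝ) : 𝕜) • ∑ s, (rad N s).smulRight (g (m N s))
  have hΦ : ∀ N a y, ‖Φ N a y‖ = (2 ^ N)⁻¹ * ‖∑ s, rad N s a * g (m N s) y‖ := by
    intro N a y
    simp [Φ]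
  have hrad : ∀ N (a : ℕ →₀ 𝕜), ∑ s, ‖rad N s a‖ ≤ 2 ^ N * √(N2 a) := fun N a =>
    (rad_upper N a).trans (by gcongr; exact le_N2 a _)
  have hup : ∀ N a y, ‖Φ N a y‖ ≤ √(N2 a) * ‖y‖ := by
    intro N a y
    rw [hΦ, inv_mul_le_iff₀ (by positivity)]
    calc _ ≤ ∑ s, ‖rad N s a‖ * ‖y‖ := by
          refine (norm_sum_le _ _).trans (Finset.sum_le_sum fun s _ => ?_)
          rw [norm_mul]
          gcongr
          exact ((g _).le_opNorm y).trans (mul_le_of_le_one_left (norm_nonneg _) (hg _))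
      _ ≤ 2 ^ N * √(N2 a) * ‖y‖ := by rw [← Finset.sum_mul]; gcongr; exact hrad N a
      _ = _ := by ring
  have hlow : ∀ n N, n + 1 ≤ N → δ / 4 * √(N2 (e n)) ≤ ‖Φ N (e n) (x n (M n))‖ := by
    intro n N hN
    obtain ⟨v, hv1, hv2⟩ := hinv n N hN
    rw [hΦ, le_inv_mul_iff₀ (by positivity)]
    have h1 : ‖∑ s, rad N s (e n) * g (m N s) (x n (M n)) - ∑ s, rad N s (e n) * v s‖ ≤
        2 ^ N * √(N2 (e n)) * (δ / 16) := by
      rw [← Finset.sum_sub_distrib]
      calc _ ≤ ∑ s, ‖rad N s (e n)‖ * (δ / 16) := by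
            refine (norm_sum_le _ _).trans (Finset.sum_le_sum fun s _ => ?_)
            rw [← mul_sub, norm_mul]
            gcongr
            exact hv1 s _ (hm N s)
        _ ≤ _ := by rw [← Finset.sum_mul]; gcongr; exact hrad N _
    have h2 := norm_le_norm_add_norm_sub (∑ s, rad N s (e n) * g (m N s) (x n (M n)))
      (∑ s, rad N s (e n) * v s)
    linarith
  let U : Ultrafilter ℕ := Ultrafilter.of atTop
  have hU : (U : Filter ℕ) ≤ atTop := Ultrafilter.of_le _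
  choose φ hφ using fun j => exists_ultralimit U (fun N => Φ N (Finsupp.single j 1)) fun N =>
    ContinuousLinearMap.opNorm_le_bound _ zero_le_one fun y => by
      simpa [N2_single] using hup N (Finsupp.single j 1) y
  have hlim : ∀ a y, Tendsto (fun N => ‖Φ N a y‖) U (𝓝 ‖lc φ a y‖) := by
    intro a y
    have e : ∀ N, Φ N a y = ∑ j ∈ a.support, a j * Φ N (Finsupp.single j 1) y := by
      intro N
      rw [← lc_apply (fun j => Φ N (Finsupp.single j 1))]
      have := Finsupp.apply_linearCombination 𝕜 (Φ N) (fun j => Finsupp.single j 1) a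
      have h1 : Finsupp.linearCombination 𝕜 (fun j => Finsupp.single j (1 : 𝕜)) a = a := by
        simp [Finsupp.linearCombination_apply]
      rw [h1] at this
      rw [this]
      rfl
    simp only [e, lc_apply]
    exact (tendsto_finsetSum _ fun j _ => (hφ j y).const_mul _).norm
  refine sq_of_l2 φ (c := δ / 4) (by positivity) (hdense φ _ fun n => ?_) fun a y =>
    le_of_tendsto' (hlim a y) fun N => hup N a y
  have h1 : δ / 4 * √(N2 (e n)) ≤ ‖lc φ (e n) (x n (M n))‖ :=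
    ge_of_tendsto (hlim _ _) (hU (eventually_atTop.2 ⟨n + 1, fun N hN => hlow n N hN⟩))
  exact h1.trans ((ContinuousLinearMap.le_opNorm _ _).trans
    (mul_le_of_le_one_right (norm_nonneg _) (hx _ _)))

/-- Asymptotic domination of sequences of functionals. -/
def Dom (g' g : ℕ → StrongDual 𝕜 X) : Prop :=
  ∀ K : ℕ, ∀ᶠ k in atTop, ∀ (x : X) (ρ : ℝ), (∀ i ≥ K, ‖g i x‖ ≤ ρ) → ‖g' k x‖ ≤ ρ

theorem Dom.refl (g : ℕ → StrongDual 𝕜 X) : Dom g g := fun K =>
  (eventually_ge_atTop K).mono fun k hk _ _ h => h k hk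

theorem Dom.trans {g'' g' g : ℕ → StrongDual 𝕜 X} (h1 : Dom g'' g') (h2 : Dom g' g) :
    Dom g'' g := by
  intro K
  obtain ⟨K', hK'⟩ := eventually_atTop.1 (h2 K)
  exact (h1 K').mono fun k hk x ρ h => hk x ρ fun i hi => hK' i hi x ρ h

theorem Blk.dom {c : ℕ → ℕ →₀ 𝕜} (hc : Blk c) (g : ℕ → StrongDual 𝕜 X) :
    Dom (fun k => lc g (c k)) g := by
  intro K
  filter_upwards [hc.eventually (Finset.range K)] with k hk x ρ h
  have := norm_lc_apply_le_N1 g (c k) x (ρ := ρ) fun i hi => h i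
    (by simpa using Finset.disjoint_left.1 hk hi)
  rwa [hc.1, one_mul] at this

/-- An `ℓ¹`-sequence in the dual gives a separable quotient. -/
theorem IsL1.sq [CompleteSpace X] {C : ℝ} {g : ℕ → StrongDual 𝕜 X} (hg : IsL1 C g) : SQ 𝕜 X := by
  classical
  by_contra hSQ
  let T := {b : ℕ → ℕ →₀ 𝕜 // Blk b}
  have step : ∀ (n : ℕ) (b : T), ∃ b' : T, Dom (fun k => lc g (b'.1 k)) (fun k => lc g (b.1 k)) ∧
      ∀ x : X, ‖x‖ ≤ 1 → ∀ᶠ k in atTop, ‖lc g (b'.1 k) x‖ ≤ 1 / ((n : ℝ) + 1) := by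
    intro n b
    have := mt (Big.sq (δ := 1 / ((n : ℝ) + 1)) (by positivity) (hg.block b.2).1) hSQ
    unfold Big at this
    push Not at this
    obtain ⟨c, hc, h⟩ := this
    refine ⟨⟨_, b.2.comp hc⟩, ?_, ?_⟩
    · simpa only [Finsupp.linearCombination_linearCombination] using hc.dom _
    · simpa only [Finsupp.linearCombination_linearCombination] using h
  choose R hR1 hR2 using step
  have hb0 : Blk fun k => Finsupp.single k (1 : 𝕜) :=
    ⟨fun k => by simp [N1_single], fun k l hkl => Disjoint.mono Finsupp.support_single_subset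
      Finsupp.support_single_subset (Finset.disjoint_singleton.2 hkl)⟩
  let B : ℕ → T := fun n => Nat.rec ⟨_, hb0⟩ R n
  have hdom : ∀ n m, n ≤ m → Dom (fun k => lc g ((B m).1 k)) (fun k => lc g ((B n).1 k)) := by
    intro n m h
    induction m, h using Nat.le_induction with
    | base => exact Dom.refl _
    | succ m _ ih => exact (hR1 m (B m)).trans ih
  obtain ⟨f, hf1, hf2⟩ := exists_seq_of_forall_finset_exists
    (fun p : ℕ × (ℕ →₀ 𝕜) => N1 p.2 = 1 ∧ ∀ n ∈ Iic p.1, ∀ (x : X) (ρ : ℝ),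
      (∀ i ≥ p.1, ‖lc g ((B n).1 i) x‖ ≤ ρ) → ‖lc g p.2 x‖ ≤ ρ)
    (fun p q => p.1 < q.1 ∧ Disjoint p.2.support q.2.support) fun s _ => by
      let m := s.sup Prod.fst + 1
      have h1 := (eventually_all_finite (finite_Iic m)).2 fun n hn => hdom n m hn m
      obtain ⟨k, hk1, hk2⟩ := (h1.and ((B m).2.eventually (s.biUnion fun p => p.2.support))).exists
      refine ⟨(m, (B m).1 k), ⟨(B m).2.1 k, hk1⟩, fun p hp => ⟨?_, ?_⟩⟩
      · exact Nat.lt_succ_of_le (Finset.le_sup (f := Prod.fst) hp)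
      · exact (hk2.mono_right (Finset.subset_biUnion_of_mem (fun p => p.2.support) hp)).symm
  have hd : Blk fun k => (f k).2 := ⟨fun k => (hf1 k).1, fun k l hkl =>
    (lt_or_gt_of_ne hkl).elim (fun h => (hf2 k l h).2) fun h => (hf2 l k h).2.symm⟩
  have hmono : StrictMono fun k => (f k).1 := fun k l h => (hf2 k l h).1
  refine hSQ ((hg.block hd).sq_of_null fun x hx ε hε => ?_)
  obtain ⟨n, hn⟩ := exists_nat_one_div_lt hε
  obtain ⟨K, hK⟩ := eventually_atTop.1 (hR2 n (B n) x hx)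
  filter_upwards [eventually_ge_atTop (max K (n + 1))] with k hk
  have h1 : max K (n + 1) ≤ (f k).1 := hk.trans (hmono.id_le k)
  exact (hf1 k).2 (n + 1) ((le_max_right _ _).trans h1) x ε fun i hi =>
    (hK i (((le_max_left _ _).trans h1).trans hi)).trans hn.le

end Vale.Agent.P129
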