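import Vale.Agent.P129.Random
import Vale.Agent.P129.Free

/-! Unconditional sequences in the dual, and `ℓ¹`-sequences. -/

set_option maxSynthPendingDepth 3

open Filter Topology Set Submodule MeasureTheory

namespace Vale.Agent.P129

variable {𝕜 X : Type*} [RCLike 𝕜] [NormedAddCommGroup X] [NormedSpace 𝕜 X]

theorem exists_unit_vanishing (W : Submodule 𝕜 X) (hW : ¬ Dense (W : Set X)) :
    ∃ h : StrongDual 𝕜 X, ‖h‖ = 1 ∧ ∀ x ∈ W, h x = 0 := by
  obtain ⟨x, hx⟩ : ∃ x, x ∉ closure (W : Set X) := not_forall.1 hW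
  let N := W.topologicalClosure
  have : IsClosed (N : Set X) := W.isClosed_topologicalClosure
  have hx0 : ‖N.mkQ x‖ ≠ 0 := norm_ne_zero_iff.2 fun h => hx ((Submodule.Quotient.mk_eq_zero N).1 h)
  obtain ⟨g, -, hgx⟩ := exists_dual_vector 𝕜 (N.mkQ x) hx0
  let φ : StrongDual 𝕜 X := g.comp N.mkQL
  have hφ : ∀ y, φ y = g (N.mkQ y) := fun y => rfl
  have hφ0 : 0 < ‖φ‖ := norm_pos_iff.2 fun h => by
    have := hφ x
    rw [h, hgx, zero_apply] at this
    exact hx0 (by exact_mod_cast this.symm)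
  refine ⟨((‖φ‖⁻¹ : ℝ) : 𝕜) • φ, ?_, fun y hy => ?_⟩
  · rw [norm_smul, RCLike.norm_ofReal, abs_of_pos (inv_pos.2 hφ0), inv_mul_cancel₀ hφ0.ne']
  · have : N.mkQ y = 0 := (Submodule.Quotient.mk_eq_zero N).2 (W.le_topologicalClosure hy)
    rw [smul_apply, hφ, this, map_zero, smul_zero]

/-- A strong form of suppression unconditionality. -/
def Unc (h : ℕ → StrongDual 𝕜 X) : Prop :=
  ∀ A : Finset ℕ, ∀ f ∈ span 𝕜 (h '' A), ∃ x : X, ‖x‖ ≤ 1 ∧ ‖f‖ ≤ 3 * ‖f x‖ ∧ ∀ k ∉ A, h k x = 0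

theorem exists_unc [CompleteSpace X] (hX : ¬ FiniteDimensional 𝕜 X) (hSQ : ¬ SQ 𝕜 X) {Ω : Type*}
    [MeasurableSpace Ω] [DiscreteMeasurableSpace Ω] (μ : Measure Ω) [IsProbabilityMeasure μ]
    (hc : SmallPieces μ) : ∃ h : ℕ → StrongDual 𝕜 X, (∀ k, ‖h k‖ = 1) ∧ Unc h := by
  classical
  let : MeasurableSpace (List Ω) := ⊤
  obtain ⟨u, hu1, hfin, hae⟩ := exists_random hX μ hc
  let G : Ω → X → Prop := fun ω x => ∀ᶠ k in atTop, ‖u k ω x‖ ≤ (1 / 2) ^ k * ‖x‖
  have hh : ∀ ω, ∃ h : StrongDual 𝕜 X, ‖h‖ = 1 ∧ ∀ x, G ω x → h x = 0 := by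
    intro ω
    let W : Submodule 𝕜 X :=
      { carrier := {x | Summable fun k => ‖u k ω x‖}
        add_mem' := fun {a b} ha hb => Summable.of_nonneg_of_le (fun _ => norm_nonneg _)
          (fun k => by rw [map_add]; exact norm_add_le _ _) (Summable.add ha hb)
        zero_mem' := by simp
        smul_mem' := fun c x hx => by
          simpa [norm_mul] using Summable.mul_left ‖c‖ hx }
    obtain ⟨h, h1, h2⟩ := exists_unit_vanishing W fun hd =>
      hSQ (sq_of_dense_summable (fun k => u k ω) (fun k => hu1 k ω) hd)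
    exact ⟨h, h1, fun x hx => h2 x (summable_of_eventually hx)⟩
  choose h hh1 hh0 using hh
  have hm : ∀ d : List Ω → X, MeasurableSet {z : Ω × List Ω | G z.1 (d z.2)} := by
    intro d
    have e : {z : Ω × List Ω | G z.1 (d z.2)} = ⋃ N : ℕ, ⋂ k ≥ N, ⋃ v ∈ range (u k),
        (u k ⁻¹' {v}) ×ˢ {t | ‖v (d t)‖ ≤ (1 / 2) ^ k * ‖d t‖} := by
      ext z
      simp [G, eventually_atTop, eq_comm]
    rw [e]
    exact MeasurableSet.iUnion fun N => MeasurableSet.iInter fun k => MeasurableSet.iInter fun _ =>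
      MeasurableSet.biUnion (hfin k).countable fun v _ =>
        MeasurableSet.of_discrete.prod MeasurableSet.of_discrete
  have hnet : ∀ T : Finset Ω, ∃ F : Set X, IsNet (span 𝕜 (h '' T)) (1 / 2) F := fun T =>
    haveI := FiniteDimensional.span_of_finite 𝕜 (T.finite_toSet.image h)
    exists_net _ (by norm_num)
  choose F hF using hnet
  have hD : ∀ l : List Ω, ∃ d : ℕ → X, ∀ T : Finset Ω, (∀ ω ∈ T, ω ∈ l) → F T ⊆ range d := by
    intro l
    have : (insert 0 (⋃ T ∈ l.toFinset.powerset, F T)).Countable :=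
      ((l.toFinset.powerset.finite_toSet.biUnion fun T _ => (hF T).1).insert 0).countable
    obtain ⟨d, hd⟩ := this.exists_eq_range (insert_nonempty _ _)
    refine ⟨d, fun T hT z hz => hd ▸ Or.inr (mem_iUnion₂.2 ⟨T, ?_, hz⟩)⟩
    exact Finset.mem_powerset.2 fun ω hω => List.mem_toFinset.2 (hT ω hω)
  choose d hd using hD
  obtain ⟨w, hw⟩ := exists_free μ G hae hm fun j l => d l j
  refine ⟨fun k => h (w k), fun k => hh1 _, fun A f hf => ?_⟩
  have hf' : f ∈ span 𝕜 (h '' (A.image w : Finset Ω)) := by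
    rwa [Finset.coe_image, image_image]
  rcases eq_or_ne f 0 with rfl | hf0
  · exact ⟨0, by simp⟩
  obtain ⟨z, hz, hfz⟩ : ∃ z ∈ F (A.image w), ‖f‖ ≤ 3 * ‖f z‖ := by
    by_contra! hcon
    have h1 := (hF _).norm_le hf' (c := ‖f‖ / 3) fun z hz => by linarith [hcon z hz]
    have h2 := norm_pos_iff.2 hf0
    linarith
  refine ⟨z, (hF _).2.1 z hz, hfz, fun k hk => hh0 _ _ ?_⟩
  obtain ⟨l, hl, hG⟩ := hw k A hk
  obtain ⟨j, rfl⟩ := hd l (A.image w) (by simpa using hl) hz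
  exact hG j

theorem lc_mem_span (g : ℕ → StrongDual 𝕜 X) (a : ℕ →₀ 𝕜) {s : Set ℕ} (h : ↑a.support ⊆ s) :
    lc g a ∈ span 𝕜 (g '' s) :=
  (Finsupp.mem_span_image_iff_linearCombination 𝕜).2 ⟨a, h, rfl⟩

theorem Unc.block {h : ℕ → StrongDual 𝕜 X} (hh : Unc h) (c : ℕ → ℕ →₀ 𝕜)
    (hc : Pairwise fun k l => Disjoint (c k).support (c l).support) :
    Unc fun k => lc h (c k) := by
  classical
  intro A f hf
  have : span 𝕜 ((fun k => lc h (c k)) '' A) ≤
      span 𝕜 (h '' (A.biUnion fun k => (c k).support : Finset ℕ)) := by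
    rw [span_le]
    rintro _ ⟨k, hk, rfl⟩
    exact lc_mem_span h _ (Finset.coe_subset.2 (Finset.subset_biUnion_of_mem
      (fun k => (c k).support) hk))
  obtain ⟨x, hx1, hx2, hx3⟩ := hh _ f (this hf)
  refine ⟨x, hx1, hx2, fun k hk => ?_⟩
  rw [lc_apply]
  refine Finset.sum_eq_zero fun i hi => ?_
  rw [hx3 i, mul_zero]
  simp only [Finset.mem_biUnion, not_exists, not_and]
  intro l hl hil
  exact Finset.disjoint_left.1 (hc (fun e : k = l => hk (e ▸ hl))) hi hil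

theorem Unc.filter_le {h : ℕ → StrongDual 𝕜 X} (hh : Unc h) (a : ℕ →₀ 𝕜) (p : ℕ → Prop)
    [DecidablePred p] : ‖lc h (a.filter p)‖ ≤ 3 * ‖lc h a‖ := by
  obtain ⟨x, hx1, hx2, hx3⟩ := hh (a.filter p).support _ (lc_mem_span h _ subset_rfl)
  have e : lc h (a.filter p) x = lc h a x := by
    conv_rhs => rw [← Finsupp.filter_add_filter_not a p, map_add, add_apply]
    rw [lc_apply h (a.filter fun i => ¬ p i), Finset.sum_eq_zero, add_zero]
    intro i hi
    rw [hx3 i, mul_zero]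
    rw [Finsupp.support_filter, Finset.mem_filter] at hi ⊢
    tauto
  rw [e] at hx2
  refine hx2.trans ?_
  gcongr
  exact ((lc h a).le_opNorm x).trans (mul_le_of_le_one_right (norm_nonneg _) hx1)

/-- The `ℓ¹` norm of a finitely supported sequence. -/
noncomputable def N1 (a : ℕ →₀ 𝕜) : ℝ := ∑ i ∈ a.support, ‖a i‖

/-- A bounded sequence with a lower `ℓ¹` estimate. -/
def IsL1 (C : ℝ) (g : ℕ → StrongDual 𝕜 X) : Prop :=
  (∀ k, ‖g k‖ ≤ 1) ∧ ∀ a : ℕ →₀ 𝕜, N1 a ≤ C * ‖lc g a‖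

theorem norm_I_le : ‖(RCLike.I : 𝕜)‖ ≤ 1 := by
  rw [RCLike.norm_I]
  split_ifs <;> norm_num

theorem norm_le_four (z : 𝕜) : ‖z‖ ≤ max (RCLike.re (1 * z)) 0 + max (RCLike.re (-1 * z)) 0 +
    max (RCLike.re (RCLike.I * z)) 0 + max (RCLike.re (-RCLike.I * z)) 0 := by
  have h1 : ‖z‖ ≤ |RCLike.re z| + |RCLike.im z| := by
    conv_lhs => rw [← RCLike.re_add_im z]
    refine (norm_add_le _ _).trans ?_
    rw [norm_mul, RCLike.norm_ofReal, RCLike.norm_ofReal]
    gcongr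
    exact mul_le_of_le_one_right (abs_nonneg _) norm_I_le
  simp only [one_mul, neg_mul, map_neg, RCLike.I_mul_re, neg_neg]
  have h2 : ∀ r : ℝ, |r| = max r 0 + max (-r) 0 := fun r => (max_zero_add_max_neg_zero_eq_abs_self r).symm
  have := h2 (RCLike.re z)
  have := h2 (RCLike.im z)
  linarith

theorem exists_l1 [CompleteSpace X] (hSQ : ¬ SQ 𝕜 X) {h : ℕ → StrongDual 𝕜 X}
    (h1 : ∀ k, ‖h k‖ = 1) (hh : Unc h) : ∃ (C : ℝ) (g : ℕ → StrongDual 𝕜 X), IsL1 C g := by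
  classical
  have hne : ∀ k, h k ≠ 0 := fun k e => by simpa [e] using h1 k
  have := mt (lemL' h hne) hSQ
  push Not at this
  obtain ⟨x, δ, hδ, hx⟩ := this
  have step : ∀ n, ∃ a : ℕ →₀ 𝕜, (∀ i ∈ a.support, n ≤ i) ∧ ‖lc h a‖ ≤ 1 ∧ lc h a x = δ := by
    intro n
    obtain ⟨a, ha1, ha2⟩ := hx n
    have h0 : 0 < ‖lc h a x‖ := lt_of_le_of_lt (by positivity) ha2
    refine ⟨((δ : 𝕜) / lc h a x) • a, fun i hi => ha1 i (Finsupp.support_smul hi), ?_, ?_⟩
    · rw [map_smul, norm_smul, norm_div, RCLike.norm_ofReal, abs_of_pos hδ, div_mul_eq_mul_div,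
        div_le_one h0]
      exact ha2.le
    · rw [map_smul, smul_apply, smul_eq_mul, div_mul_cancel₀ _ (norm_pos_iff.1 h0)]
  obtain ⟨c, hc1, hc2⟩ := exists_seq_of_forall_finset_exists
    (fun a : ℕ →₀ 𝕜 => ‖lc h a‖ ≤ 1 ∧ lc h a x = δ) (fun a b => Disjoint a.support b.support)
    fun s _ => by
      obtain ⟨a, ha1, ha2⟩ := step ((s.biUnion Finsupp.support).sup id + 1)
      refine ⟨a, ha2, fun b hb => Finset.disjoint_left.2 fun i hi hia => ?_⟩
      have := ha1 i hia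
      have := Finset.le_sup (f := id) (Finset.mem_biUnion.2 ⟨b, hb, hi⟩)
      simp only [id] at this
      omega
  have hc3 : Pairwise fun k l => Disjoint (c k).support (c l).support := fun k l hkl =>
    (lt_or_gt_of_ne hkl).elim (hc2 k l) fun h => (hc2 l k h).symm
  have hg := hh.block c hc3
  set g : ℕ → StrongDual 𝕜 X := fun k => lc h (c k) with hgdef
  have hgx : ∀ k, g k x = δ := fun k => (hc1 k).2
  refine ⟨4 * (3 * ‖x‖ / δ), g, fun k => (hc1 k).1, fun a => ?_⟩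
  have key : ∀ t : 𝕜, ‖t‖ ≤ 1 →
      ∑ i ∈ a.support, max (RCLike.re (t * a i)) 0 ≤ 3 * ‖x‖ / δ * ‖lc g a‖ := by
    intro t ht
    have e1 : ∑ i ∈ a.support, max (RCLike.re (t * a i)) 0 =
        ∑ i ∈ a.support with 0 ≤ RCLike.re (t * a i), RCLike.re (t * a i) := by
      rw [Finset.sum_filter]
      refine Finset.sum_congr rfl fun i _ => ?_
      split_ifs with h
      · exact max_eq_left h
      · exact max_eq_right (not_le.1 h).le
    have e2 : (∑ i ∈ a.support with 0 ≤ RCLike.re (t * a i), RCLike.re (t * a i)) * δ =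
        RCLike.re (t * lc g (a.filter fun i => 0 ≤ RCLike.re (t * a i)) x) := by
      rw [lc_apply, Finsupp.support_filter, Finset.mul_sum, map_sum, Finset.sum_mul]
      refine Finset.sum_congr rfl fun i hi => ?_
      rw [Finsupp.filter_apply_pos (fun i => 0 ≤ RCLike.re (t * a i)) a (Finset.mem_filter.1 hi).2,
        hgx, ← mul_assoc, RCLike.mul_re]
      simp
    rw [e1, div_mul_eq_mul_div, le_div_iff₀ hδ, e2]
    refine (RCLike.re_le_norm _).trans ?_
    rw [norm_mul]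
    refine (mul_le_of_le_one_left (norm_nonneg _) ht).trans
      ((ContinuousLinearMap.le_opNorm _ _).trans ?_)
    calc _ ≤ 3 * ‖lc g a‖ * ‖x‖ := by gcongr; exact hg.filter_le a _
      _ = _ := by ring
  have hI : ‖(RCLike.I : 𝕜)‖ ≤ 1 := norm_I_le
  have k1 := key 1 (by simp)
  have k2 := key (-1) (by simp)
  have k3 := key RCLike.I hI
  have k4 := key (-RCLike.I) (by simpa using hI)
  have := Finset.sum_le_sum fun i (_ : i ∈ a.support) => norm_le_four (a i)
  simp only [Finset.sum_add_distrib] at this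
  unfold N1
  linarith

end Vale.Agent.P129
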